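import Vale.Agent.P065.H654.SGSys

/-!
# P065, package SGIANT: the far flags of the fine box of a giant (helper654)
-/

set_option autoImplicit false
set_option linter.unusedSectionVars false

open Finset Real

noncomputable section

namespace Vale.Agent.P065.H654

open Vale.Agent.P065.UB Vale.Agent.P065.Ent Vale.Agent.P065.H725 Vale.Agent.P065.H154

section frame
variable {Ω : Type*} [Fintype Ω] {F : Fr Ω} {ln : Ω → Pt} {p : Prm} {Lab : Type*} {lam : Ω → Lab}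
  {μ : Ω → ℝ} {q : ℕ} {τ : ℝ}

/-- the two forms of the mass of an event inside a cell -/
lemma ms_msc {α : Type*} (μ : Ω → ℝ) (E : Ω → Prop) (X : Ω → α) (ω : Ω) :
    ms μ (fun ω' => X ω' = X ω ∧ E ω') = H268.msc μ E X ω := by
  classical
  unfold ms H268.msc
  refine sum_congr rfl fun ω' _ => ?_
  by_cases h : X ω' = X ω ∧ E ω'
  · rw [if_pos h, if_pos h]
  · rw [if_neg h, if_neg h]

omit [Fintype Ω] in
/-- positions of the slopes of two lines of one slope cell -/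
lemma f_sub_of_S {c : p.Kap} {v v' : Pt} (h : Prm.S c v' = Prm.S c v) :
    Prm.f c v' - Prm.f c v = 2 ^ Prm.sc c * (v'.1 - v.1) := by
  have h1 := Sc_add_fs p.k₀ (Prm.sy c) (Prm.sc c) v
  have h2 := Sc_add_fs p.k₀ (Prm.sy c) (Prm.sc c) v'
  unfold Prm.S at h
  rw [h] at h2
  unfold Prm.f
  linear_combination h2 - h1

/-- **half of the fine box of a giant is far**, in terms of the positions of the slopes -/
theorem giC_far_f (hμ : IsProb μ) (hτ : τ ≤ 1 / 2) {c : p.Col} {ω : Ω}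
    (h : GiC F ln p lam μ q τ c ω) :
    1 / 2 * Pr μ (rho F ln p lam c) (rho F ln p lam c ω) ≤
      ms μ (fun ω' => rho F ln p lam c ω' = rho F ln p lam c ω ∧
        1 / (48 * 2 ^ q) ≤ |Prm.f c.1 (ln ω') - Prm.f c.1 (ln ω)|) := by
  classical
  have h1 := giC_far hμ q c ω h
  have hp := Pr_nonneg hμ (rho F ln p lam c) (rho F ln p lam c ω)
  have h2 : 1 / 2 * Pr μ (rho F ln p lam c) (rho F ln p lam c ω) ≤
      (1 - τ) * Pr μ (rho F ln p lam c) (rho F ln p lam c ω) :=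
    mul_le_mul_of_nonneg_right (by linarith) hp
  refine h2.trans (h1.trans ?_)
  unfold ms H268.msc
  refine sum_le_sum fun ω' _ => ?_
  by_cases hA : rho F ln p lam c ω' = rho F ln p lam c ω ∧
      2 ^ (-(Prm.sc c.1 + (q : ℤ))) / 48 < |(ln ω').1 - (ln ω).1|
  · rw [if_pos hA, if_pos]
    refine ⟨hA.1, ?_⟩
    have hS : Prm.S c.1 (ln ω') = Prm.S c.1 (ln ω) := by
      have h3 := hA.1
      unfold rho at h3
      simp only [Prod.mk.injEq] at h3
      exact h3.2.1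
    rw [f_sub_of_S hS, abs_mul, abs_of_pos (by positivity)]
    have h4 := hA.2.le
    have h5 : (0 : ℝ) < 2 ^ Prm.sc c.1 := by positivity
    calc 1 / (48 * 2 ^ q) = 2 ^ Prm.sc c.1 * (2 ^ (-(Prm.sc c.1 + (q : ℤ))) / 48) := by
          rw [neg_add, zpow_add₀ (by norm_num), zpow_neg, zpow_neg, zpow_natCast]
          field_simp
      _ ≤ 2 ^ Prm.sc c.1 * |(ln ω').1 - (ln ω).1| := mul_le_mul_of_nonneg_left h4 h5.le
  · rw [if_neg hA]
    split_ifs
    · exact hμ.nonneg _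
    · exact le_rfl

end frame

section sys
variable {B₀ Γ s₀ q Λ kt kN : ℕ} {c₂ : ℝ} {n g : ℕ} {S : SysI B₀ Γ s₀ q Λ kt kN c₂ n g} {r₀ : ℝ}

/-- **half of the fine box of a charged flag is far** -/
theorem SGL.far_half (L : SGL S r₀) (hg : 2 ≤ g) (hkt : 1 ≤ kt) {c : S.p.Col} {ω : S.Ω}
    (h : 0 < L.Q (c, ω)) :
    1 / 2 * Pr S.μ (rho S.F S.ln S.p S.lam c) (rho S.F S.ln S.p S.lam c ω) ≤
      ms S.μ (fun ω' => rho S.F S.ln S.p S.lam c ω' = rho S.F S.ln S.p S.lam c ω ∧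
        1 / (48 * 2 ^ q) ≤ |Prm.f c.1 (S.ln ω') - Prm.f c.1 (S.ln ω)|) := by
  refine giC_far_f S.hμ ?_ (L.gi h)
  have hgr : (2 : ℝ) ≤ g := by exact_mod_cast hg
  have h1 : (1 : ℝ) / g ≤ 1 / 2 := one_div_le_one_div_of_le (by norm_num) hgr
  calc (1 / (g : ℝ)) ^ kt ≤ (1 / (g : ℝ)) ^ 1 :=
        pow_le_pow_of_le_one (by positivity) (by linarith) hkt
    _ ≤ 1 / 2 := by rw [pow_one]; exact h1

/-- the giants of a fine box have small mass -/
theorem SGL.gi_mass (_L : SGL S r₀) (c : S.p.Col) (ω : S.Ω) :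
    ms S.μ (fun ω' => rho S.F S.ln S.p S.lam c ω' = rho S.F S.ln S.p S.lam c ω ∧
      GiC S.F S.ln S.p S.lam S.μ q ((1 / (g : ℝ)) ^ kt) c ω') ≤
      2 ^ (q + 6) * (1 / (g : ℝ)) ^ kt *
        Pr S.μ (rho S.F S.ln S.p S.lam c) (rho S.F S.ln S.p S.lam c ω) := by
  rw [ms_msc]
  exact giC_mass S.hμ q (pow_nonneg (div_nonneg zero_le_one (Nat.cast_nonneg g)) kt) c ω

end sys

end Vale.Agent.P065.H654
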