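import Vale.Agent.P065.H268.Maxi

/-!
# P065, package SGIANT, part (5): coarse-light columns (helper654)

`S k` are nested cells (slope cells of scale `k`), `ρ k` fine boxes which determine `S k`.
If the giants of a fine box have small mass, while all of the box outside the own sub-cell
`S (k + j)` of the giant is heavy, then up to a small mass every giant is *coarse-light*: its own
sub-cell has a small share of `S k`. A flag is coarse-light in few columns.
-/

set_option autoImplicit false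

open Finset Real

noncomputable section

namespace Vale.Agent.P065.H654

open Vale.Agent.P065.Ent Vale.Agent.P065.H268

variable {Ω : Type*} [Fintype Ω] {σ α : Type*} {μ : Ω → ℝ}

/-- the own sub-cell has share at most `θ` -/
def Lt (μ : Ω → ℝ) (S : ℤ → Ω → σ) (j : ℕ) (θ : ℝ) (k : ℤ) (ω : Ω) : Prop :=
  Pr μ (S (k + j)) (S (k + j) ω) ≤ θ * Pr μ (S k) (S k ω)

/-- a separated set of steps with small share -/
lemma chain_le (hμ : IsProb μ) {S : ℤ → Ω → σ} (hS : ∀ ⦃k k' : ℤ⦄, k ≤ k' → Det (S k') (S k))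
    {j : ℕ} {θ : ℝ} (hθ : 0 ≤ θ) (ω : Ω) (T : Finset ℤ) (hT : ∀ k ∈ T, Lt μ S j θ k ω)
    (hsep : ∀ k ∈ T, ∀ k' ∈ T, k < k' → k + j ≤ k') (a : ℤ) (ha : ∀ k ∈ T, k + j ≤ a) :
    Pr μ (S a) (S a ω) ≤ θ ^ #T := by
  classical
  induction T using Finset.induction_on_max generalizing a with
  | empty => simpa using Pr_le_one hμ (S a) _
  | insert m T hm ih =>
    have hmT : m ∉ T := fun h => lt_irrefl _ (hm m h)
    rw [card_insert_of_notMem hmT, pow_succ]
    have h1 := ih (fun k hk => hT k (mem_insert_of_mem hk))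
      (fun k hk k' hk' => hsep k (mem_insert_of_mem hk) k' (mem_insert_of_mem hk')) m
      (fun k hk => hsep k (mem_insert_of_mem hk) m (mem_insert_self m T) (hm k hk))
    have h2 : Pr μ (S a) (S a ω) ≤ Pr μ (S (m + j)) (S (m + j) ω) :=
      Pr_mono hμ (hS (ha m (mem_insert_self m T))) ω
    have h3 : Pr μ (S (m + j)) (S (m + j) ω) ≤ θ * Pr μ (S m) (S m ω) :=
      hT m (mem_insert_self m T)
    calc Pr μ (S a) (S a ω) ≤ θ * Pr μ (S m) (S m ω) := h2.trans h3
      _ ≤ θ * θ ^ #T := mul_le_mul_of_nonneg_left h1 hθ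
      _ = θ ^ #T * θ := mul_comm _ _

/-- the number of steps with small share, one residue class -/
lemma count_sep (hμ : IsProb μ) {S : ℤ → Ω → σ} (hS : ∀ ⦃k k' : ℤ⦄, k ≤ k' → Det (S k') (S k))
    {j : ℕ} {θ thr : ℝ} (hθ : 0 < θ) (hθ1 : θ < 1) (hthr : 0 < thr) (hthr1 : thr ≤ 1) (ω : Ω)
    (T : Finset ℤ) (hT : ∀ k ∈ T, thr ≤ Pr μ (S k) (S k ω) ∧ Lt μ S j θ k ω)
    (hsep : ∀ k ∈ T, ∀ k' ∈ T, k < k' → k + j ≤ k') :
    (#T : ℝ) ≤ log (1 / thr) / log (1 / θ) + 1 := by
  classical
  have hl1 : 0 < log (1 / θ) := log_pos (by rw [lt_div_iff₀ hθ]; linarith)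
  have hl2 : 0 ≤ log (1 / thr) := log_nonneg (by rw [le_div_iff₀ hthr]; linarith)
  rcases T.eq_empty_or_nonempty with rfl | hne
  · simp only [card_empty, Nat.cast_zero]
    positivity
  · set m := T.max' hne with hm
    have hmT : m ∈ T := T.max'_mem hne
    have hlt : ∀ k ∈ T.erase m, k < m := fun k hk =>
      lt_of_le_of_ne (T.le_max' k (mem_of_mem_erase hk)) (ne_of_mem_erase hk)
    have h1 := chain_le hμ hS hθ.le ω (T.erase m) (fun k hk => (hT k (mem_of_mem_erase hk)).2)
      (fun k hk k' hk' => hsep k (mem_of_mem_erase hk) k' (mem_of_mem_erase hk')) m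
      (fun k hk => hsep k (mem_of_mem_erase hk) m hmT (hlt k hk))
    have h2 := (hT m hmT).1.trans h1
    rw [card_erase_of_mem hmT] at h2
    have h3 : log thr ≤ ((#T - 1 : ℕ) : ℝ) * log θ := by
      rw [← log_pow]
      exact log_le_log hthr h2
    have h4 : ((#T - 1 : ℕ) : ℝ) = #T - 1 := by
      rw [Nat.cast_sub (card_pos.mpr hne), Nat.cast_one]
    rw [h4] at h3
    rw [one_div, log_inv] at hl1 hl2 ⊢
    rw [one_div, log_inv]
    rw [← sub_le_iff_le_add, le_div_iff₀ hl1]
    linarith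

/-- the number of steps with small share -/
theorem count_light (hμ : IsProb μ) {S : ℤ → Ω → σ}
    (hS : ∀ ⦃k k' : ℤ⦄, k ≤ k' → Det (S k') (S k))
    {j : ℕ} (hj : 0 < j) {θ thr : ℝ} (hθ : 0 < θ) (hθ1 : θ < 1) (hthr : 0 < thr) (hthr1 : thr ≤ 1)
    (ω : Ω) (T : Finset ℤ) (hT : ∀ k ∈ T, thr ≤ Pr μ (S k) (S k ω) ∧ Lt μ S j θ k ω) :
    (#T : ℝ) ≤ j * (log (1 / thr) / log (1 / θ) + 1) := by
  classical
  have hj0 : (0 : ℤ) < j := by exact_mod_cast hj
  have h1 : #T = ∑ r ∈ range j, #{k ∈ T | (k % (j : ℤ)).toNat = r} := by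
    refine card_eq_sum_card_fiberwise fun k _ => ?_
    simp only [coe_range, Set.mem_Iio]
    have h2 := Int.emod_nonneg k hj0.ne'
    have h3 := Int.emod_lt_of_pos k hj0
    omega
  have h2 : ∀ r ∈ range j, (#{k ∈ T | (k % (j : ℤ)).toNat = r} : ℝ) ≤
      log (1 / thr) / log (1 / θ) + 1 := by
    intro r _
    refine count_sep hμ hS hθ hθ1 hthr hthr1 ω _ (fun k hk => hT k (mem_filter.mp hk).1) ?_
    intro k hk k' hk' hlt
    have e1 := (mem_filter.mp hk).2
    have e2 := (mem_filter.mp hk').2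
    have h3 := Int.emod_nonneg k hj0.ne'
    have h4 := Int.emod_nonneg k' hj0.ne'
    have h5 : k % j = k' % j := by omega
    have h6 : (j : ℤ) ∣ k' - k := Int.ModEq.dvd h5
    have h7 := Int.le_of_dvd (by linarith) h6
    linarith
  rw [h1]
  push_cast
  calc ∑ r ∈ range j, (#{k ∈ T | (k % (j : ℤ)).toNat = r} : ℝ)
      ≤ ∑ _r ∈ range j, (log (1 / thr) / log (1 / θ) + 1) := sum_le_sum h2
    _ = j * (log (1 / thr) / log (1 / θ) + 1) := by rw [sum_const, card_range, nsmul_eq_mul]

open Classical in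
/-- the mass of the union over the columns -/
lemma ms_exists_le (hμ : IsProb μ) (K : Finset ℤ) (Q : ℤ → Ω → Prop) :
    ms μ (fun ω => ∃ k ∈ K, Q k ω) ≤ ∑ k ∈ K, ms μ (Q k) := by
  unfold ms
  rw [sum_comm]
  refine sum_le_sum fun ω _ => ?_
  split_ifs with h
  · obtain ⟨k, hk, hq⟩ := h
    refine le_trans (le_of_eq ?_) (single_le_sum (fun i _ => ?_) hk)
    · rw [if_pos hq]
    · split_ifs
      · exact hμ.nonneg ω
      · exact le_rfl
  · refine sum_nonneg fun i _ => ?_
    split_ifs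
    · exact hμ.nonneg ω
    · exact le_rfl

/-- the sum of the masses of the columns is an expected number -/
lemma sum_ms (K : Finset ℤ) (Q : ℤ → Ω → Prop) [∀ k ω, Decidable (Q k ω)] :
    ∑ k ∈ K, ms μ (Q k) = ∑ ω, μ ω * (#{k ∈ K | Q k ω} : ℝ) := by
  unfold ms
  rw [sum_comm]
  refine sum_congr rfl fun ω _ => ?_
  rw [card_filter, Nat.cast_sum, mul_sum]
  refine sum_congr rfl fun k _ => ?_
  by_cases h : Q k ω <;> simp [h]

open Classical in
/-- **most giants are coarse-light**: `Gi k` are the giants of the column `k`, they have relative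
mass at most `τ` in every fine box, and half of the fine box of a giant is outside its sub-cell -/
theorem giants_coarse (hμ : IsProb μ) {S : ℤ → Ω → σ}
    (hS : ∀ ⦃k k' : ℤ⦄, k ≤ k' → Det (S k') (S k)) {ρ : ℤ → Ω → α} {j : ℕ} (hj : 0 < j)
    (K : Finset ℤ) (hρ : ∀ k ∈ K, Det (ρ k) (S k)) {Gi : ℤ → Ω → Prop} {τ θ thr : ℝ} (hτ : 0 ≤ τ)
    (hθ : 0 < θ) (hθ1 : θ < 1) (hthr : 0 < thr) (hthr1 : thr ≤ 1)
    (hG : ∀ k ∈ K, ∀ ω, msc μ (Gi k) (ρ k) ω ≤ τ * Pr μ (ρ k) (ρ k ω))
    (hF : ∀ k ∈ K, ∀ ω, 0 < μ ω → Gi k ω → thr ≤ Pr μ (ρ k) (ρ k ω) →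
      1 / 2 * Pr μ (ρ k) (ρ k ω) ≤ msc μ (fun ω' => S (k + j) ω' ≠ S (k + j) ω) (ρ k) ω) :
    ∑ k ∈ K, ms μ (fun ω => thr ≤ Pr μ (ρ k) (ρ k ω) ∧ Gi k ω ∧ ¬ Lt μ S j θ k ω) ≤
      2 * τ * (j * (log (1 / thr) / θ + 1)) := by
  -- the flags with a small share, in the big boxes
  set F : ℤ → Ω → Prop := fun k ω => thr ≤ Pr μ (S k) (S k ω) ∧ Lt μ S j (1 - θ) k ω with hFdef
  have hone : ∀ k ∈ K, ms μ (fun ω => thr ≤ Pr μ (ρ k) (ρ k ω) ∧ Gi k ω ∧ ¬ Lt μ S j θ k ω) ≤
      2 * τ * ms μ (F k) := by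
    intro k hk
    -- the boxes which contain a giant which is not coarse-light
    set B : Ω → Prop := fun ω => ∃ ω', 0 < μ ω' ∧ ρ k ω' = ρ k ω ∧ thr ≤ Pr μ (ρ k) (ρ k ω') ∧
      Gi k ω' ∧ ¬ Lt μ S j θ k ω' with hB
    have hBd : Det (ρ k) B := by
      intro ω ω' e
      simp only [hB]
      rw [e]
    have h1 : 1 / 2 * ms μ B ≤ ms μ (fun ω => B ω ∧ F k ω) := by
      refine ms_le_of_cells (F k) B (ρ k) hBd fun ω hω => ?_
      obtain ⟨ω', h0, e, hbig, hgi, hnl⟩ := hω
      have h2 := hF k hk ω' h0 hgi hbig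
      rw [e] at h2
      refine h2.trans ?_
      rw [msc_congr e]
      unfold msc
      refine sum_le_sum fun x _ => ?_
      by_cases hx : ρ k x = ρ k ω ∧ S (k + j) x ≠ S (k + j) ω'
      · rw [if_pos hx]
        have hSx : S k x = S k ω' := hρ k hk x ω' (hx.1.trans e.symm)
        have hFx : F k x := by
          refine ⟨?_, ?_⟩
          · rw [hSx]
            exact hbig.trans (Pr_mono hμ (hρ k hk) ω')
          · unfold Lt at hnl ⊢
            push Not at hnl
            rw [hSx]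
            -- two different sub-cells of one cell
            have h3 : Pr μ (S (k + j)) (S (k + j) x) + Pr μ (S (k + j)) (S (k + j) ω') ≤
                Pr μ (S k) (S k ω') := by
              unfold Pr
              rw [← sum_add_distrib]
              refine sum_le_sum fun y _ => ?_
              have hy0 := hμ.nonneg y
              have hk' : k ≤ k + j := by omega
              by_cases c1 : S (k + j) y = S (k + j) x
              · have c2 : S (k + j) y ≠ S (k + j) ω' := fun c => hx.2 (c1.symm.trans c)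
                have c3 : S k y = S k ω' := (hS hk' y x c1).trans hSx
                simp [c1, c3, hx.2]
              · by_cases c2 : S (k + j) y = S (k + j) ω'
                · have c3 : S k y = S k ω' := hS hk' y ω' c2
                  have c4 : S (k + j) ω' ≠ S (k + j) x := fun c => hx.2 c.symm
                  simp [c2, c3, c4]
                · rw [if_neg c1, if_neg c2]
                  split_ifs
                  · simpa using hy0
                  · simp
            linarith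
        rw [if_pos ⟨hx.1, hFx⟩]
      · rw [if_neg hx]
        split_ifs
        · exact hμ.nonneg x
        · exact le_rfl
    have h2 : ms μ (fun ω => thr ≤ Pr μ (ρ k) (ρ k ω) ∧ Gi k ω ∧ ¬ Lt μ S j θ k ω) ≤
        ms μ (fun ω => B ω ∧ Gi k ω) := by
      unfold ms
      refine sum_le_sum fun ω _ => ?_
      rcases (hμ.nonneg ω).eq_or_lt with h0 | h0
      · rw [← h0]; simp
      · split_ifs with c1 c2 c2
        · exact le_rfl
        · exact absurd ⟨⟨ω, h0, rfl, c1.1, c1.2.1, c1.2.2⟩, c1.2.1⟩ c2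
        · exact h0.le
        · exact le_rfl
    -- the giants of the boxes of `B`
    have h3 : ms μ (fun ω => B ω ∧ Gi k ω) ≤ τ * ms μ B := by
      have e1 : ms μ (fun ω => B ω ∧ Gi k ω) =
          ∑ x ∈ univ.image (ρ k), ∑ ω, if ρ k ω = x ∧ (B ω ∧ Gi k ω) then μ ω else 0 := by
        unfold ms
        rw [sum_comm]
        refine sum_congr rfl fun ω _ => ?_
        by_cases hb : B ω ∧ Gi k ω
        · simp only [hb, and_true, if_true]
          rw [sum_ite_eq, if_pos (mem_image_of_mem (ρ k) (mem_univ ω))]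
        · simp [hb]
      have e2 : ms μ B = ∑ x ∈ univ.image (ρ k), ∑ ω, if ρ k ω = x ∧ B ω then μ ω else 0 := by
        unfold ms
        rw [sum_comm]
        refine sum_congr rfl fun ω _ => ?_
        by_cases hb : B ω
        · simp only [hb, and_true, if_true]
          rw [sum_ite_eq, if_pos (mem_image_of_mem (ρ k) (mem_univ ω))]
        · simp [hb]
      rw [e1, e2, mul_sum]
      refine sum_le_sum fun x hx => ?_
      obtain ⟨ω0, -, rfl⟩ := mem_image.mp hx
      by_cases hb : B ω0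
      · have f1 : (∑ ω, if ρ k ω = ρ k ω0 ∧ B ω then μ ω else 0) = Pr μ (ρ k) (ρ k ω0) := by
          unfold Pr
          refine sum_congr rfl fun ω _ => ?_
          by_cases hx : ρ k ω = ρ k ω0
          · have : B ω := by rw [hBd _ _ hx]; exact hb
            simp [hx, this]
          · simp [hx]
        have f2 : (∑ ω, if ρ k ω = ρ k ω0 ∧ (B ω ∧ Gi k ω) then μ ω else 0) =
            msc μ (Gi k) (ρ k) ω0 := by
          unfold msc
          refine sum_congr rfl fun ω _ => ?_
          by_cases hx : ρ k ω = ρ k ω0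
          · have : B ω := by rw [hBd _ _ hx]; exact hb
            simp [hx, this]
          · simp [hx]
        rw [f1, f2]
        exact hG k hk ω0
      · have e0 : ∀ ω, ¬ (ρ k ω = ρ k ω0 ∧ B ω) := by
          rintro ω ⟨e, e'⟩
          exact hb (by rw [← hBd _ _ e]; exact e')
        have f1 : (∑ ω, if ρ k ω = ρ k ω0 ∧ B ω then μ ω else 0) = 0 :=
          sum_eq_zero fun ω _ => if_neg (e0 ω)
        have f2 : (∑ ω, if ρ k ω = ρ k ω0 ∧ (B ω ∧ Gi k ω) then μ ω else 0) = 0 :=
          sum_eq_zero fun ω _ => if_neg fun h => e0 ω ⟨h.1, h.2.1⟩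
        rw [f1, f2, mul_zero]
    have h4 : ms μ (fun ω => B ω ∧ F k ω) ≤ ms μ (F k) :=
      ms_mono' hμ.nonneg fun ω h => h.2
    calc _ ≤ τ * ms μ B := h2.trans h3
      _ = 2 * τ * (1 / 2 * ms μ B) := by ring
      _ ≤ 2 * τ * ms μ (F k) := mul_le_mul_of_nonneg_left (h1.trans h4) (by positivity)
  -- the expected number of steps with a small share
  have hsum : ∑ k ∈ K, ms μ (F k) ≤ j * (log (1 / thr) / θ + 1) := by
    rw [sum_ms K F]
    have hcount : ∀ ω, (#{k ∈ K | F k ω} : ℝ) ≤ j * (log (1 / thr) / θ + 1) := by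
      intro ω
      have h1 := count_light hμ hS hj (θ := 1 - θ) (by linarith) (by linarith) hthr hthr1 ω
        {k ∈ K | F k ω} (fun k hk => (mem_filter.mp hk).2)
      refine h1.trans (mul_le_mul_of_nonneg_left ?_ (Nat.cast_nonneg j))
      have hl2 : 0 ≤ log (1 / thr) := log_nonneg (by rw [le_div_iff₀ hthr]; linarith)
      have hl1 : θ ≤ log (1 / (1 - θ)) := by
        rw [one_div, log_inv]
        have := log_le_sub_one_of_pos (show 0 < 1 - θ by linarith)
        linarith
      have := div_le_div_of_nonneg_left hl2 hθ hl1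
      linarith
    refine (sum_le_sum fun ω _ => mul_le_mul_of_nonneg_left (hcount ω) (hμ.nonneg ω)).trans ?_
    rw [← sum_mul, hμ.sum, one_mul]
  calc _ ≤ ∑ k ∈ K, 2 * τ * ms μ (F k) := sum_le_sum hone
    _ = 2 * τ * ∑ k ∈ K, ms μ (F k) := by rw [mul_sum]
    _ ≤ _ := mul_le_mul_of_nonneg_left hsum (by positivity)

end Vale.Agent.P065.H654
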