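import Vale.Agent.P065.H654.SGLaw
import Vale.Agent.P065.H725.SysI

/-!
# P065, package SGIANT: the law of the slope giants for the system of case (I) (helper654)
-/

set_option autoImplicit false
set_option linter.unusedSectionVars false

open Finset Real

noncomputable section

namespace Vale.Agent.P065.H654

open Vale.Agent.P065.UB Vale.Agent.P065.Ent Vale.Agent.P065.H725 Vale.Agent.P065.H154

/-! ## Time cells -/

section time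

variable {Ω : Type*} [Fintype Ω] {F : Fr Ω} {p : Prm}

/-- at the last level the time cell determines the piece -/
lemma det_DW (u : ℝ) {T : ℕ} (hT : F.Tm ≤ T) : Det (F.D u T) (F.P.W F.n) := by
  intro ω ω' h
  have hx := F.x_eq_of_le h ((F.T'_le ω).trans hT)
  exact le_antisymm (F.P.mono _ _ _ hx.le) (F.P.mono _ _ _ hx.ge)

/-- the pieces determine the time cells -/
lemma det_WD (u : ℝ) (T : ℕ) : Det (F.P.W F.n) (F.D u T) := fun _ _ h =>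
  F.D_of_x (F.xW _ _ h)

/-- number of time cells -/
lemma card_D_le (u : ℝ) (T : ℕ) : #(univ.image (F.D u T)) ≤ #(univ.image (F.P.W F.n)) := by
  classical
  refine card_le_card_of_surjOn (fun w => if h : ∃ ω, F.P.W F.n ω = w then F.D u T h.choose else 0)
    ?_
  intro d hd
  rw [coe_image, Set.mem_image] at hd
  obtain ⟨ω, -, rfl⟩ := hd
  refine ⟨F.P.W F.n ω, mem_coe.2 (mem_image_of_mem _ (mem_univ _)), ?_⟩
  have h : ∃ ω', F.P.W F.n ω' = F.P.W F.n ω := ⟨ω, rfl⟩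
  simp only [h, dif_pos]
  exact det_WD u T _ _ h.choose_spec

lemma card_D_le' {κ : Type*} [Fintype κ] (u : ℝ) (T : ℕ) :
    #(univ.image (fun a : κ × Ω => F.D u T a.2)) ≤ #(univ.image (F.P.W F.n)) := by
  classical
  refine le_trans (card_le_card ?_) (card_D_le (F := F) u T)
  intro d hd
  rw [mem_image] at hd
  obtain ⟨a, -, rfl⟩ := hd
  exact mem_image_of_mem _ (mem_univ _)

/-- there are at most two time cells of level zero -/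
lemma Hc_D0_le {κ : Type*} [Fintype κ] {q : κ × Ω → ℝ} (hq : IsProb q) (u : ℝ) {β : Type*}
    (Z : κ × Ω → β) : Hc q (fun a => F.D u 0 a.2) Z ≤ log 2 := by
  have h := Hc_le_log hq (fun a : κ × Ω => F.D u 0 a.2) Z 2 (by norm_num) (fun a => by
    have : Nonempty Ω := ⟨a.2⟩
    obtain ⟨ω₀, -, hmin⟩ := (univ : Finset Ω).exists_min_image F.P.x univ_nonempty
    refine ⟨{⌊F.P.x ω₀ + u⌋, ⌊F.P.x ω₀ + u⌋ + 1}, card_le_two, ?_⟩
    rintro ⟨k, ω⟩ -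
    have hx0 : F.P.x ω₀ ≤ F.P.x ω := hmin ω (mem_univ _)
    have hx1 : F.P.x ω < F.P.x ω₀ + 1 := by
      have e1 := F.P.diam ω₀ ω
      have e2 := F.P.δ_pos
      linarith
    have eD : F.D u 0 ω = ⌊F.P.x ω + u⌋ := by
      unfold Fr.D
      rw [pow_zero, one_mul]
    simp only [mem_insert, mem_singleton]
    rw [eD]
    have h1 : ⌊F.P.x ω₀ + u⌋ ≤ ⌊F.P.x ω + u⌋ := Int.floor_mono (by linarith)
    have h2 : ⌊F.P.x ω + u⌋ < ⌊F.P.x ω₀ + u⌋ + 2 := by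
      rw [Int.floor_lt]
      push_cast
      linarith [Int.lt_floor_add_one (F.P.x ω₀ + u)]
    omega)
  simpa using h

/-- growth in terms of the time cells -/
lemma growth_time {κ : Type*} [Fintype κ] {q : κ × Ω → ℝ} (hq : IsProb q) (u : ℝ) {T : ℕ}
    (hT : F.Tm ≤ T) {β : Type*} (Y : κ × Ω → β) :
    Hc q (fun a => F.P.W F.n a.2) Y - log 2 ≤
      Hc q (fun a => F.D u T a.2) (fun a => (F.D u 0 a.2, Y a)) := by
  have h1 : Hc q (fun a => F.P.W F.n a.2) Y ≤ Hc q (fun a => F.D u T a.2) Y :=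
    Hc_mono_left hq fun a a' h => det_DW u hT _ _ h
  have h2 := Hc_le_add hq (fun a : κ × Ω => F.D u T a.2) (fun a => F.D u 0 a.2) Y
  have h3 := Hc_D0_le hq u (F := F) Y
  linarith

end time

/-! ## The law -/

/-- **the law of the slope giants** -/
structure SGL {B₀ Γ s₀ q Λ kt kN : ℕ} {c₂ : ℝ} {n g : ℕ} (S : SysI B₀ Γ s₀ q Λ kt kN c₂ n g)
    (r₀ : ℝ) where
  a : Bool
  Q : S.p.Col × S.Ω → ℝ
  hQ : IsProb Q
  per : LPer S.F S.p Q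
  le : ∀ t, Q t ≤ 256 / S.p.nT * S.μ t.2
  pos : ∀ {c : S.p.Col} {ω : S.Ω}, 0 < Q (c, ω) → 0 < S.μ ω
  sy : ∀ {c : S.p.Col} {ω : S.Ω}, 0 < Q (c, ω) → Prm.sy c.1 = a
  bb : ∀ {c : S.p.Col} {ω : S.Ω}, 0 < Q (c, ω) → c.1.2.2 = (bz S.p, bz S.p)
  big : ∀ {c : S.p.Col} {ω : S.Ω}, 0 < Q (c, ω) → Big S.F S.ln S.p S.lam S.μ S.θ S.η c ω
  gi : ∀ {c : S.p.Col} {ω : S.Ω}, 0 < Q (c, ω) →
    GiC S.F S.ln S.p S.lam S.μ q ((1 / (g : ℝ)) ^ kt) c ω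
  cl : ∀ {c : S.p.Col} {ω : S.Ω}, 0 < Q (c, ω) →
    CL S.ln S.p.k₀ a S.μ q (1 / (g : ℝ)) (Prm.sc c.1) ω
  one : ∀ {κ κ' : S.p.Kap} {i : Fin S.p.nT} {ω : S.Ω}, 0 < Q ((κ, i), ω) → 0 < Q ((κ', i), ω) →
    κ = κ'
  thr : ∀ {c : S.p.Col} {ω : S.Ω}, 0 < Q (c, ω) →
    exp (-(Λ * g)) ≤ Pr S.μ (rho S.F S.ln S.p S.lam c) (rho S.F S.ln S.p S.lam c ω)
  growth : ∀ (u : ℝ) {T : ℕ}, S.F.Tm ≤ T → c₂ * g - r₀ * (1 + log g) ≤
    Hc Q (fun t => S.F.D u T t.2) (fun t => (S.F.D u 0 t.2, (t.1, S.ln t.2)))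
  leaves : ∀ (u : ℝ) (T : ℕ), #(univ.image (fun t : S.p.Col × S.Ω => S.F.D u T t.2)) ≤
    B₀ ^ (2 * g)

section
variable {B₀ Γ s₀ q Λ kt kN : ℕ} {c₂ : ℝ} {n g : ℕ} (S : SysI B₀ Γ s₀ q Λ kt kN c₂ n g)

/-- the thresholds are at most one -/
lemma SysI_le_one : S.θ ≤ 1 ∧ S.η ≤ 1 := by
  classical
  have hnT : (0 : ℝ) < S.p.nT := by exact_mod_cast S.p.nT_pos
  have h := S.gi
  obtain ⟨i, -, hi⟩ : ∃ i ∈ (univ : Finset (Fin S.p.nT)), 0 < ms S.μ (fun ω => ∃ κ : S.p.Kap,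
      Big S.F S.ln S.p S.lam S.μ S.θ S.η (κ, i) ω ∧
      Gnt S.F S.ln S.p S.lam S.μ q ((1 / (g : ℝ)) ^ kt) (κ, i) ω) := by
    by_contra hcon
    push Not at hcon
    have := sum_nonpos hcon
    have : (0 : ℝ) < S.p.nT / 64 := by positivity
    linarith
  obtain ⟨ω, hω, hE⟩ : ∃ ω, 0 < S.μ ω ∧ ∃ κ : S.p.Kap,
      Big S.F S.ln S.p S.lam S.μ S.θ S.η (κ, i) ω ∧
      Gnt S.F S.ln S.p S.lam S.μ q ((1 / (g : ℝ)) ^ kt) (κ, i) ω := by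
    by_contra hcon
    have h0 : ms S.μ (fun ω => ∃ κ : S.p.Kap,
      Big S.F S.ln S.p S.lam S.μ S.θ S.η (κ, i) ω ∧
      Gnt S.F S.ln S.p S.lam S.μ q ((1 / (g : ℝ)) ^ kt) (κ, i) ω) ≤ 0 := by
      unfold ms
      refine sum_nonpos fun ω _ => ?_
      split_ifs with h1
      · by_contra h2
        exact hcon ⟨ω, not_le.1 h2, h1⟩
      · exact le_rfl
    linarith
  obtain ⟨κ, hB, -⟩ := hE
  obtain ⟨h1, h2⟩ := hB
  refine ⟨h1.trans (Pr_le_one S.hμ _ _), ?_⟩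
  have hp : 0 < Pr S.μ (FV S.F S.lam) (FV S.F S.lam ω) := Pr_pos S.hμ _ hω
  have h3 : Pr S.μ (rho S.F S.ln S.p S.lam (κ, i)) (rho S.F S.ln S.p S.lam (κ, i) ω) ≤
      Pr S.μ (FV S.F S.lam) (FV S.F S.lam ω) := by
    refine Pr_mono S.hμ (fun ω₁ ω₂ e => ?_) ω
    exact (Prod.ext_iff.1 e).1
  have h4 := h2.trans h3
  by_contra hc
  push Not at hc
  nlinarith

/-- the last level of time -/
lemma SysI_Tm_le : S.F.Tm ≤ S.p.M := by
  have h1 := S.F.Tm_le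
  have h2 := S.M_ge
  omega

end

/-! ## Numbers -/

/-- the constant of the coarse part -/
lemma num_E {q Λ kt g : ℕ} (hkt : 3 ≤ kt) (hg3 : 3 ≤ g)
    (hg : 256 * (2 * 2 ^ (q + 6) * (q + 6 : ℕ) * ((Λ : ℝ) + 1)) ≤ g) {L : ℝ} (hL0 : 0 ≤ L)
    (hL : L ≤ Λ * g) :
    2 * (2 ^ (q + 6) * (1 / (g : ℝ)) ^ kt) * ((q + 6 : ℕ) * (L / (1 / g) + 1)) ≤ (1 / 64) / 4 := by
  have hgr : (3 : ℝ) ≤ g := by exact_mod_cast hg3
  have hg0 : (0 : ℝ) < g := by linarith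
  have hg1 : (1 : ℝ) / g ≤ 1 / 3 := one_div_le_one_div_of_le (by norm_num) hgr
  have hτ3 : (1 / (g : ℝ)) ^ kt ≤ (1 / (g : ℝ)) ^ 3 :=
    pow_le_pow_of_le_one (by positivity) (by linarith) hkt
  have h1 : L / (1 / g) + 1 ≤ (Λ + 1) * (g : ℝ) ^ 2 := by
    rw [div_div_eq_mul_div, div_one]
    have h2 : L * g ≤ Λ * g * g := mul_le_mul_of_nonneg_right hL hg0.le
    nlinarith
  have h3 : 0 ≤ L / (1 / (g : ℝ)) + 1 := by positivity
  calc 2 * (2 ^ (q + 6) * (1 / (g : ℝ)) ^ kt) * ((q + 6 : ℕ) * (L / (1 / g) + 1))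
      ≤ 2 * (2 ^ (q + 6) * (1 / (g : ℝ)) ^ 3) * ((q + 6 : ℕ) * ((Λ + 1) * (g : ℝ) ^ 2)) := by
        gcongr
    _ = (2 * 2 ^ (q + 6) * (q + 6 : ℕ) * ((Λ : ℝ) + 1)) / g := by
        field_simp
    _ ≤ 1 / 64 / 4 := by
        rw [div_le_iff₀ hg0]
        linarith

/-- number of scales of a line -/
lemma num_N {q Λ g : ℕ} (hg3 : 3 ≤ g) (hlog : 1 ≤ log (g : ℝ)) {L : ℝ} (hL : L ≤ Λ * g) :
    (q + 6 : ℕ) * (L / log (1 / (1 / (g : ℝ))) + 1) ≤ (((q + 6) * (Λ * g + 1) : ℕ) : ℝ) := by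
  rw [one_div_one_div]
  push_cast
  have h1 : L / log g ≤ Λ * g := by
    rw [div_le_iff₀ (by linarith)]
    have h4 : (0 : ℝ) ≤ Λ * g := by positivity
    nlinarith
  have h2 : (0 : ℝ) ≤ (q : ℝ) + 6 := by positivity
  exact mul_le_mul_of_nonneg_left (by linarith) h2

/-- the constant of the growth -/
lemma num_R {q Λ g : ℕ} (hg3 : 3 ≤ g) {R : ℝ} (hR1 : 1 ≤ R)
    (hR : R = 4 * ((Λ : ℝ) + 1) / (1 / 64) * ((q + 6 : ℕ) * ((Λ : ℝ) + 1))) :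
    log (4 * ((Λ : ℝ) + 1) / (1 / 64) * (((q + 6) * (Λ * g + 1) : ℕ) : ℝ)) + log 2 ≤
      (log R + log 2 + 1) * (1 + log g) := by
  have hgr : (3 : ℝ) ≤ g := by exact_mod_cast hg3
  have hg0 : (0 : ℝ) < g := by linarith
  have hlogg : 0 ≤ log (g : ℝ) := log_nonneg (by linarith)
  have h2 : log (4 * ((Λ : ℝ) + 1) / (1 / 64) * (((q + 6) * (Λ * g + 1) : ℕ) : ℝ)) ≤
      log R + log g := by
    rw [← log_mul (by positivity) hg0.ne']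
    refine log_le_log (by positivity) ?_
    rw [hR]
    push_cast
    have h3 : (Λ : ℝ) * g + 1 ≤ (Λ + 1) * g := by linarith
    have h4 : (0 : ℝ) ≤ 4 * (Λ + 1) / (1 / 64) * ((q : ℝ) + 6) := by positivity
    calc 4 * ((Λ : ℝ) + 1) / (1 / 64) * (((q : ℝ) + 6) * (Λ * g + 1)) =
        4 * ((Λ : ℝ) + 1) / (1 / 64) * ((q : ℝ) + 6) * (Λ * g + 1) := by ring
      _ ≤ 4 * ((Λ : ℝ) + 1) / (1 / 64) * ((q : ℝ) + 6) * ((Λ + 1) * g) :=
        mul_le_mul_of_nonneg_left h3 h4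
      _ = 4 * ((Λ : ℝ) + 1) / (1 / 64) * (((q : ℝ) + 6) * (Λ + 1)) * g := by ring
  have h5 : 0 ≤ log R := log_nonneg hR1
  have h6 := log_pos (by norm_num : (1 : ℝ) < 2)
  have h7 : 0 ≤ (log R + log 2) * log g := by positivity
  linarith

/-- **the law of the slope giants exists** -/
theorem exists_SGL (q Λ : ℕ) : ∃ (r₀ : ℝ) (g₁ : ℕ), 0 ≤ r₀ ∧ ∀ kt : ℕ, 3 ≤ kt → ∀ g : ℕ, g₁ ≤ g →
    ∀ (B₀ Γ s₀ kN : ℕ) (c₂ : ℝ) (n : ℕ) (S : SysI B₀ Γ s₀ q Λ kt kN c₂ n g),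
      Nonempty (SGL S r₀) := by
  classical
  -- constants
  set C : ℝ := 2 * 2 ^ (q + 6) * (q + 6 : ℕ) * (Λ + 1) with hC
  have hC0 : 0 < C := by positivity
  obtain ⟨g₂, hg₂⟩ := exists_nat_ge (256 * C)
  set R : ℝ := 4 * (Λ + 1) / (1 / 64) * ((q + 6 : ℕ) * (Λ + 1)) with hR
  have hR1 : 1 ≤ R := by
    have h1 : (1 : ℝ) ≤ (Λ : ℝ) + 1 := by linarith [(Nat.cast_nonneg Λ : (0 : ℝ) ≤ Λ)]
    have h2 : (6 : ℝ) ≤ ((q + 6 : ℕ) : ℝ) := by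
      push_cast
      linarith [(Nat.cast_nonneg q : (0 : ℝ) ≤ q)]
    have h3 : (1 : ℝ) ≤ ((q + 6 : ℕ) : ℝ) * (Λ + 1) := by nlinarith
    rw [hR]
    have h4 : (1 : ℝ) ≤ 4 * (Λ + 1) / (1 / 64) := by
      rw [le_div_iff₀ (by norm_num)]
      linarith
    nlinarith
  refine ⟨log R + log 2 + 1, max g₂ 3, by
    have h1 := log_nonneg hR1
    have h2 := log_pos (by norm_num : (1 : ℝ) < 2)
    linarith, ?_⟩
  intro kt hkt g hg B₀ Γ s₀ kN c₂ n S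
  have hg3 : 3 ≤ g := (le_max_right _ _).trans hg
  have hgr : (3 : ℝ) ≤ g := by exact_mod_cast hg3
  have hg0 : (0 : ℝ) < g := by linarith
  have hgC : 256 * C ≤ g := hg₂.trans (by exact_mod_cast (le_max_left _ _).trans hg)
  have hlog1 : 1 ≤ log g := by
    rw [le_log_iff_exp_le hg0]
    exact (exp_one_lt_d9.le.trans (by norm_num)).trans hgr
  have hlogg : 0 ≤ log (g : ℝ) := by linarith
  obtain ⟨hθ1, hη1⟩ := SysI_le_one S
  have hηθ : 0 < S.η * S.θ := mul_pos S.η_pos S.θ_pos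
  -- the logarithm of the threshold
  have hL : log (1 / (S.η * S.θ)) ≤ Λ * g := by
    rw [one_div, log_inv]
    have h1 := (le_log_iff_exp_le hηθ).2 S.thr
    linarith
  have hL0 : 0 ≤ log (1 / (S.η * S.θ)) := by
    apply log_nonneg
    rw [le_div_iff₀ hηθ, one_mul]
    exact mul_le_one₀ hη1 S.θ_pos.le hθ1
  -- the near mass of the giants
  set τ : ℝ := (1 / (g : ℝ)) ^ kt with hτ
  have hτ0 : 0 < τ := by positivity
  have hg1 : (1 : ℝ) / g ≤ 1 / 3 := one_div_le_one_div_of_le (by norm_num) hgr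
  have hτ3 : τ ≤ (1 / (g : ℝ)) ^ 3 :=
    pow_le_pow_of_le_one (by positivity) (by linarith) hkt
  have hτ1 : τ ≤ 1 / 2 := by
    refine hτ3.trans ?_
    calc (1 / (g : ℝ)) ^ 3 ≤ (1 / 3 : ℝ) ^ 3 := pow_le_pow_left₀ (by positivity) hg1 3
      _ ≤ 1 / 2 := by norm_num
  have hthc : (0 : ℝ) < 1 / g := by positivity
  have hthc1 : (1 : ℝ) / g < 1 := by linarith
  have hE : 2 * (2 ^ (q + 6) * τ) * ((q + 6 : ℕ) * (log (1 / (S.η * S.θ)) / (1 / g) + 1)) ≤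
      (1 / 64) / 4 := num_E hkt hg3 hgC hL0 hL
  have hI : 1 / 64 * (S.p.nT : ℝ) ≤ ∑ i : Fin S.p.nT, ms S.μ fun ω => ∃ κ : S.p.Kap,
      Big S.F S.ln S.p S.lam S.μ S.θ S.η (κ, i) ω ∧ Gnt S.F S.ln S.p S.lam S.μ q τ (κ, i) ω := by
    have := S.gi
    linarith
  -- number of scales of a line
  have hN : (q + 6 : ℕ) * (log (1 / (S.η * S.θ)) / log (1 / (1 / (g : ℝ))) + 1) ≤
      (((q + 6) * (Λ * g + 1) : ℕ) : ℝ) := num_N hg3 hlog1 hL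
  have hΛ : ∀ ω, S.μ ω ≤ ((Λ : ℝ) + 1) * S.ν ω := fun ω => by
    have h1 := S.μ_le ω
    have h2 := S.hν.nonneg ω
    linarith
  obtain ⟨a, Q', hQ, hper, hle, hsup, hone, hgr'⟩ := exists_law (F := S.F) (ln := S.ln) (p := S.p)
    (lam := S.lam) (μ := S.μ) (q := q) (τ := τ) (θ := 1 / g) S.hμ (SysI_Tm_le S)
    (c₁ := 1 / 64) (th := S.θ) (η := S.η) (by norm_num) hτ0.le hτ1 hthc hthc1 S.θ_pos hθ1 S.η_pos
    hη1 hE hI hN S.hν (cν := (Λ : ℝ) + 1) (by positivity) hΛ (S.F.P.W S.F.n) (s := c₂ * g) S.sur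
  refine ⟨⟨a, Q', hQ, hper, ?_, fun h => (hsup _ _ h).1, fun h => (hsup _ _ h).2.1,
    fun h => (hsup _ _ h).2.2.1, fun h => (hsup _ _ h).2.2.2.1, fun h => (hsup _ _ h).2.2.2.2.1,
    fun h => (hsup _ _ h).2.2.2.2.2, fun h h' => hone _ _ _ _ h h', ?_, ?_, ?_⟩⟩
  · intro t
    have h := hle t
    have e : (4 : ℝ) / (1 / 64) = 256 := by norm_num
    rwa [e] at h
  · intro c ω h
    exact S.thr.trans (Big_thr S.η_pos.le (hsup _ _ h).2.2.2.1)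
  · intro u T hT
    have h1 := growth_time (F := S.F) hQ u hT (fun t => (t.1, S.ln t.2))
    have h2 := num_R (q := q) (Λ := Λ) hg3 hR1 hR
    linarith
  · intro u T
    exact (card_D_le' u T).trans S.leaves

end Vale.Agent.P065.H654
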