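import Vale.Agent.P065.H154.Frame
import Vale.Agent.P065.H268.Maxi

/-!
# P065, package SGIANT: definitions and elementary geometry (helper654)

Slope giants. `Lc` are boxes of lines with plain heights at the left end of the time cell (own
offset `θ`), nested in the slope scale `k`; `InT` : the line follows the heavy children of `Lc`;
`MajF` : some far line of the fine box of the flag follows the heavy children.
-/

set_option autoImplicit false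
set_option linter.unusedSectionVars false

open Finset Real

noncomputable section

namespace Vale.Agent.P065.H654

open Vale.Agent.P065.UB Vale.Agent.P065.Ent Vale.Agent.P065.H725 Vale.Agent.P065.H154

/-! ## Heights -/

/-- the height of the line `v` at the time `x` -/
def Y (x : ℝ) (v : Pt) : ℝ := x * v.1 - v.2

lemma Y_eq (x : ℝ) (v : Pt) : Y x v = -ht x v := by unfold Y ht; ring

/-- the difference of the heights of `v'` and `v` in units of `2 ^ (-k)` -/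
def Dl (k : ℤ) (x : ℝ) (v v' : Pt) : ℝ := 2 ^ k * (Y x v' - Y x v)

lemma Dl_move (k : ℤ) (x x' : ℝ) (v v' : Pt) :
    Dl k x v v' = Dl k x' v v' + (x - x') * (2 ^ k * (v'.1 - v.1)) := by
  unfold Dl Y; ring

lemma Dl_tri (k : ℤ) (x : ℝ) (v v' v'' : Pt) : Dl k x v v'' = Dl k x v v' + Dl k x v' v'' := by
  unfold Dl; ring

lemma Dl_swap (k : ℤ) (x : ℝ) (v v' : Pt) : Dl k x v v' = -Dl k x v' v := by
  unfold Dl; ring

lemma slope_lt {k₀ : ℤ} {a : Bool} {k : ℤ} {v v' : Pt} (h : Sc k₀ a k v' = Sc k₀ a k v) :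
    |2 ^ k * (v'.1 - v.1)| < 1 := by
  have h1 := dy_close' h
  have hk : (0 : ℝ) < 2 ^ k := by positivity
  rw [abs_mul, abs_of_pos hk]
  rw [zpow_neg, ← one_div, lt_div_iff₀ hk] at h1
  linarith
where
  dy_close' {θ : ℝ} {k : ℤ} {x y : ℝ} (h : dy θ k x = dy θ k y) : |x - y| < 2 ^ (-k) := by
    unfold dy at h
    have h1 := Int.abs_sub_lt_one_of_floor_eq_floor h
    have e : (x - θ) * 2 ^ k - (y - θ) * 2 ^ k = (x - y) * 2 ^ k := by ring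
    have hk : (0 : ℝ) < 2 ^ k := by positivity
    rw [e, abs_mul, abs_of_pos hk] at h1
    rw [zpow_neg, ← one_div, lt_div_iff₀ hk]
    exact h1

lemma h_diff {p : Prm} {c : p.Col} (x : ℝ) {v v' : Pt} (h : Prm.S c.1 v' = Prm.S c.1 v) :
    Prm.h c x v' - Prm.h c x v = Dl (Prm.sc c.1) x v v' := by
  unfold Prm.S at h
  unfold Prm.h Dl
  rw [hl_eq, hl_eq, Y_eq, Y_eq, h]
  ring

/-- two values on the same side of all grid points -/
lemma floor_same {γ : ℕ} {z z₁ z₂ : ℝ} (h : ¬ ∃ m : ℤ, |z - 2 ^ γ * m| ≤ 5) (h1 : |z₁ - z| ≤ 5)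
    (h2 : |z₂ - z| ≤ 5) : ⌊z₁ / 2 ^ γ⌋ = ⌊z₂ / 2 ^ γ⌋ := by
  have hg : (0 : ℝ) < 2 ^ γ := by positivity
  have key : ∀ w₁ w₂ : ℝ, |w₁ - z| ≤ 5 → |w₂ - z| ≤ 5 → ¬ ⌊w₁ / 2 ^ γ⌋ < ⌊w₂ / 2 ^ γ⌋ := by
    intro w₁ w₂ a1 a2 hlt
    apply h
    refine ⟨⌊w₂ / 2 ^ γ⌋, ?_⟩
    have b1 : w₁ < 2 ^ γ * ⌊w₂ / 2 ^ γ⌋ := by
      have := Int.floor_lt.1 hlt
      rw [div_lt_iff₀ hg] at this
      linarith
    have b2 : 2 ^ γ * (⌊w₂ / 2 ^ γ⌋ : ℝ) ≤ w₂ := by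
      have := Int.floor_le (w₂ / 2 ^ γ)
      rw [le_div_iff₀ hg] at this
      linarith
    rw [abs_le] at a1 a2 ⊢
    constructor <;> linarith [a1.1, a1.2, a2.1, a2.2]
  exact le_antisymm (not_lt.1 (key _ _ h2 h1)) (not_lt.1 (key _ _ h1 h2))

section
variable {Ω : Type*} (F : Fr Ω)

/-- the left end of the time cell -/
def dt (u : ℝ) (t : ℕ) (ω : Ω) : ℝ := (F.D u t ω : ℝ) / 2 ^ t - u

variable {F}

lemma dt_congr {u : ℝ} {t : ℕ} {ω ω' : Ω} (h : F.D u t ω = F.D u t ω') :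
    dt F u t ω = dt F u t ω' := by
  unfold dt
  rw [h]

lemma dt_le (u : ℝ) (t : ℕ) (ω : Ω) : 0 ≤ F.P.x ω - dt F u t ω := by
  unfold dt Fr.D
  have h := Int.floor_le ((2 : ℝ) ^ t * (F.P.x ω + u))
  have h2 : (0 : ℝ) < 2 ^ t := by positivity
  have h3 : (⌊(2 : ℝ) ^ t * (F.P.x ω + u)⌋ : ℝ) / 2 ^ t ≤ F.P.x ω + u := by
    rw [div_le_iff₀ h2]
    linarith
  linarith

lemma lt_dt (u : ℝ) (t : ℕ) (ω : Ω) : F.P.x ω - dt F u t ω < 1 / 2 ^ t := by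
  unfold dt Fr.D
  have h := Int.lt_floor_add_one ((2 : ℝ) ^ t * (F.P.x ω + u))
  have h2 : (0 : ℝ) < 2 ^ t := by positivity
  have h3 : F.P.x ω + u < (⌊(2 : ℝ) ^ t * (F.P.x ω + u)⌋ : ℝ) / 2 ^ t + 1 / 2 ^ t := by
    rw [← add_div, lt_div_iff₀ h2]
    linarith
  linarith

lemma x_close {u : ℝ} {t : ℕ} {ω ω' : Ω} (h : F.D u t ω = F.D u t ω') :
    |F.P.x ω - F.P.x ω'| < 1 / 2 ^ t := by
  have h1 := dt_le (F := F) u t ω
  have h2 := lt_dt (F := F) u t ω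
  have h3 := dt_le (F := F) u t ω'
  have h4 := lt_dt (F := F) u t ω'
  rw [dt_congr h] at h1 h2
  rw [abs_lt]
  constructor <;> linarith

end

/-! ## Definitions -/

section
variable {Ω : Type*} [Fintype Ω] (F : Fr Ω) (ln : Ω → Pt) (p : Prm)

/-- plain boxes of lines: time cell, slope cell, height at the left end of the time cell with the
own offset `θ` -/
def Lc (u θ : ℝ) (γ t : ℕ) (a : Bool) (k : ℤ) (ω : Ω) : ℤ × ℤ × ℤ :=
  (F.D u t ω, Sc p.k₀ a k (ln ω), dy (-θ) ((t : ℤ) + k - γ) (Y (dt F u t ω) (ln ω)))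

omit [Fintype Ω] in
lemma Lc_nest {u θ : ℝ} {γ t : ℕ} {a : Bool} {k k' : ℤ} (h : k ≤ k') :
    Det (Lc F ln p u θ γ t a k') (Lc F ln p u θ γ t a k) := by
  intro ω ω' e
  unfold Lc at e ⊢
  simp only [Prod.mk.injEq] at e ⊢
  exact ⟨e.1, Sc_nest h e.2.1, dy_nest (by omega) e.2.2⟩

omit [Fintype Ω] in
lemma Lc_D {u θ : ℝ} {γ t : ℕ} {a : Bool} {k : ℤ} :
    Det (Lc F ln p u θ γ t a k) (F.D u t) := by
  intro ω ω' e
  unfold Lc at e
  simp only [Prod.mk.injEq] at e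
  exact e.1

/-- the line follows the heavy children of its box for `m` steps -/
def InT (μ : Ω → ℝ) (u θ : ℝ) (γ t : ℕ) (a : Bool) (k : ℤ) (m : ℕ) (ω : Ω) : Prop :=
  ∀ i < m, Pr μ (Lc F ln p u θ γ t a (k + i)) (Lc F ln p u θ γ t a (k + i) ω) <
    2 * Pr μ (Lc F ln p u θ γ t a (k + i + 1)) (Lc F ln p u θ γ t a (k + i + 1) ω)

/-- the slopes are far -/
def Far (q : ℕ) (k : ℤ) (ω ω' : Ω) : Prop :=
  2 ^ (-(k + (q : ℤ))) / 48 < |(ln ω').1 - (ln ω).1|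

/-- some far line of the fine box follows the heavy children -/
def MajF {Lab : Type*} (lam : Ω → Lab) (μ : Ω → ℝ) (u θ : ℝ) (γ q m t : ℕ) (c : p.Col) (ω : Ω) :
    Prop :=
  ∃ ω', 0 < μ ω' ∧ rho F ln p lam c ω' = rho F ln p lam c ω ∧ Far ln q (Prm.sc c.1) ω ω' ∧
    InT F ln p μ u θ γ t (Prm.sy c.1) (Prm.sc c.1) m ω'

/-- the flags which leave the time cell `x0` -/
def Ev (u : ℝ) (s : ℕ) (x0 : ℕ → ℤ → ℤ) (t : ℕ) (ω : Ω) : Prop :=
  F.D u (t + s) ω ≠ x0 t (F.D u t ω)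

/-- the flag or its box `Lc` leaves the time cell `x0` -/
def UF (μ : Ω → ℝ) (u θ : ℝ) (γ s : ℕ) (x0 : ℕ → ℤ → ℤ) (τ₁ : ℝ) (t : ℕ) (a : Bool) (k : ℤ)
    (ω : Ω) : Prop :=
  Ev F u s x0 t ω ∨ τ₁ * Pr μ (Lc F ln p u θ γ t a k) (Lc F ln p u θ γ t a k ω) ≤
    H268.msc μ (Ev F u s x0 t) (Lc F ln p u θ γ t a k) ω

/-- the line is close to a row boundary in the time cell -/
def nearR (u : ℝ) (γ t : ℕ) (c : p.Col) (ω : Ω) : Prop :=
  ∃ m : ℤ, |2 ^ t * Prm.h c (dt F u t ω) (ln ω) - 2 ^ γ * m| ≤ 5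

/-- the line is close to a boundary of the boxes `Lc` in the time cell -/
def nearL (u θ : ℝ) (γ t : ℕ) (k : ℤ) (ω : Ω) : Prop :=
  ∃ m : ℤ, |2 ^ ((t : ℤ) + k) * (Y (dt F u t ω) (ln ω) + θ) - 2 ^ γ * m| ≤ 5

variable {F ln p}

/-- flags of one fine box -/
lemma rho_same {Lab : Type*} {lam : Ω → Lab} {c : p.Col} {ω ω' : Ω}
    (h : rho F ln p lam c ω' = rho F ln p lam c ω) :
    F.P.x ω' = F.P.x ω ∧ F.T' ω' = F.T' ω ∧ Prm.S c.1 (ln ω') = Prm.S c.1 (ln ω) ∧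
      |Dl (Prm.sc c.1) (F.P.x ω) (ln ω) (ln ω')| < 1 / 2 ^ F.T' ω := by
  unfold rho at h
  simp only [Prod.mk.injEq] at h
  obtain ⟨⟨h1, -⟩, h2, h3⟩ := h
  have hx := F.xW _ _ h1
  have hT := F.T'x _ _ hx
  refine ⟨hx, hT, h2, ?_⟩
  unfold Nr Prm.N at h3
  rw [hx, hT] at h3
  have h4 := Int.abs_sub_lt_one_of_floor_eq_floor h3
  rw [← h_diff _ h2]
  have h5 : (0 : ℝ) < 2 ^ F.T' ω := by positivity
  rw [lt_div_iff₀ h5]
  have e : 2 ^ F.T' ω * Prm.h c (F.P.x ω) (ln ω') / 2 ^ 0 -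
      2 ^ F.T' ω * Prm.h c (F.P.x ω) (ln ω) / 2 ^ 0 =
      (Prm.h c (F.P.x ω) (ln ω') - Prm.h c (F.P.x ω) (ln ω)) * 2 ^ F.T' ω := by
    ring
  rwa [e, abs_mul, abs_of_pos h5] at h4

/-- lines which are close at the left end of the cell have the same plain box -/
lemma Lc_of_close {u θ : ℝ} {γ t : ℕ} {a : Bool} {k : ℤ} {ω ω' : Ω}
    (hD : F.D u t ω' = F.D u t ω) (hS : Sc p.k₀ a k (ln ω') = Sc p.k₀ a k (ln ω))
    (hn : ¬ nearL F ln u θ γ t k ω)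
    (h : |Dl k (dt F u t ω) (ln ω) (ln ω')| ≤ 5 / 2 ^ t) :
    Lc F ln p u θ γ t a k ω' = Lc F ln p u θ γ t a k ω := by
  unfold Lc
  simp only [Prod.mk.injEq]
  refine ⟨hD, hS, ?_⟩
  rw [dt_congr hD]
  unfold dy
  have ht : (0 : ℝ) < 2 ^ t := by positivity
  have e : ∀ y : ℝ, (y - -θ) * 2 ^ ((t : ℤ) + k - γ) = 2 ^ ((t : ℤ) + k) * (y + θ) / 2 ^ γ := by
    intro y
    rw [zpow_sub₀ (by norm_num), zpow_natCast]
    ring
  rw [e, e]
  refine floor_same hn ?_ (by simp)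
  have e2 : 2 ^ ((t : ℤ) + k) * (Y (dt F u t ω) (ln ω') + θ) -
      2 ^ ((t : ℤ) + k) * (Y (dt F u t ω) (ln ω) + θ) =
      Dl k (dt F u t ω) (ln ω) (ln ω') * 2 ^ t := by
    unfold Dl
    rw [zpow_add₀ (by norm_num), zpow_natCast]
    ring
  rw [e2, abs_mul, abs_of_pos ht]
  rwa [le_div_iff₀ ht] at h

/-- flags of one fine box have the same plain box -/
lemma Lc_rho {Lab : Type*} {lam : Ω → Lab} {u θ : ℝ} {γ t : ℕ} {c : p.Col} {ω ω' : Ω}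
    (h : rho F ln p lam c ω' = rho F ln p lam c ω) (ht : t ≤ F.T' ω)
    (hn : ¬ nearL F ln u θ γ t (Prm.sc c.1) ω) :
    Lc F ln p u θ γ t (Prm.sy c.1) (Prm.sc c.1) ω' =
      Lc F ln p u θ γ t (Prm.sy c.1) (Prm.sc c.1) ω := by
  obtain ⟨hx, hT, hS, hh⟩ := rho_same h
  refine Lc_of_close (F.D_of_x hx) hS hn ?_
  have h1 := slope_lt hS
  have h2 := Dl_move (Prm.sc c.1) (dt F u t ω) (F.P.x ω) (ln ω) (ln ω')
  have h3 := dt_le (F := F) u t ω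
  have h4 := lt_dt (F := F) u t ω
  have h5 : (1 : ℝ) / 2 ^ F.T' ω ≤ 1 / 2 ^ t :=
    one_div_le_one_div_of_le (by positivity) (pow_le_pow_right₀ (by norm_num) ht)
  have h6 : |(dt F u t ω - F.P.x ω) * (2 ^ Prm.sc c.1 * ((ln ω').1 - (ln ω).1))| ≤ 1 / 2 ^ t := by
    rw [abs_mul]
    have h7 : |dt F u t ω - F.P.x ω| ≤ 1 / 2 ^ t := by
      rw [abs_le]
      constructor <;> linarith
    calc _ ≤ 1 / 2 ^ t * 1 := mul_le_mul h7 h1.le (abs_nonneg _) (by positivity)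
      _ = 1 / 2 ^ t := mul_one _
  rw [h2]
  refine (abs_add_le _ _).trans ?_
  have h8 : (0 : ℝ) < 1 / 2 ^ t := by positivity
  have h9 : (5 : ℝ) / 2 ^ t = 5 * (1 / 2 ^ t) := by ring
  rw [h9]
  linarith

end

end Vale.Agent.P065.H654
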