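import Vale.Agent.P065.H654.CoarseGeo
import Vale.Agent.P065.H154.Frame
import Vale.Agent.P065.H353.Transfer

/-!
# P065, package SGIANT, part (5) on FRAME (helper654)

One slope system `a`; the columns `cc j` (`j ≤ K`) have the slope scale `k₀ + j`. A flag is a
giant in the column `c` if the flags of its fine box at slope distance at most
`2 ^ (-(k + q)) / 48` have relative mass less than `τ`; it is coarse-light if its slope cell of
scale `k + q + 6` has share at most `θ` in its slope cell of scale `k`.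
-/

set_option autoImplicit false
set_option linter.unusedSectionVars false

open Finset Real

noncomputable section

namespace Vale.Agent.P065.H654

open Vale.Agent.P065.UB Vale.Agent.P065.Ent Vale.Agent.P065.H725 Vale.Agent.P065.H154

variable {Ω : Type*} [Fintype Ω] {μ : Ω → ℝ}

/-- giants of the column `c` -/
def GiC (F : Fr Ω) (ln : Ω → Pt) (p : Prm) {Lab : Type*} (lam : Ω → Lab) (μ : Ω → ℝ) (q : ℕ)
    (τ : ℝ) (c : p.Col) (ω : Ω) : Prop :=
  H268.msc μ (fun ω' => |(ln ω').1 - (ln ω).1| ≤ 2 ^ (-(Prm.sc c.1 + (q : ℤ))) / 48)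
    (rho F ln p lam c) ω < τ * Pr μ (rho F ln p lam c) (rho F ln p lam c ω)

/-- coarse-light flags -/
def CL (ln : Ω → Pt) (k₀ : ℤ) (a : Bool) (μ : Ω → ℝ) (q : ℕ) (θ : ℝ) (k : ℤ) (ω : Ω) : Prop :=
  Lt μ (fun k ω => Sc k₀ a k (ln ω)) (q + 6) θ k ω

variable {F : Fr Ω} {ln : Ω → Pt} {p : Prm} {Lab : Type*} {lam : Ω → Lab}

/-- coarse-light is a property of the line -/
lemma CL_congr {k₀ : ℤ} {a : Bool} {q : ℕ} {θ : ℝ} {k : ℤ} {ω ω' : Ω} (h : ln ω = ln ω') :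
    CL ln k₀ a μ q θ k ω ↔ CL ln k₀ a μ q θ k ω' := by
  unfold CL Lt
  simp only [h]

/-- the giants of a fine box have small mass -/
theorem giC_mass (hμ : IsProb μ) (q : ℕ) {τ : ℝ} (hτ : 0 ≤ τ) (c : p.Col) (ω : Ω) :
    H268.msc μ (GiC F ln p lam μ q τ c) (rho F ln p lam c) ω ≤
      2 ^ (q + 6) * τ * Pr μ (rho F ln p lam c) (rho F ln p lam c ω) := by
  have h := giant_mass (μ := μ) (s := fun ω => (ln ω).1) (o := os p.k₀ (Prm.sy c.1))
    (ρ := fun _ => rho F ln p lam c) (k := Prm.sc c.1) hμ (fun ω ω' e => by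
      unfold rho at e
      simp only [Prod.mk.injEq] at e
      exact e.2.1) q hτ ω
  exact h

/-- the mass of the fine box of a giant outside its slope sub-cell, and far from the giant -/
theorem giC_far (hμ : IsProb μ) (q : ℕ) {τ : ℝ} (c : p.Col) (ω : Ω)
    (h : GiC F ln p lam μ q τ c ω) :
    (1 - τ) * Pr μ (rho F ln p lam c) (rho F ln p lam c ω) ≤
      H268.msc μ (fun ω' => 2 ^ (-(Prm.sc c.1 + (q : ℤ))) / 48 < |(ln ω').1 - (ln ω).1|)
        (rho F ln p lam c) ω := by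
  classical
  unfold GiC at h
  have h1 : Pr μ (rho F ln p lam c) (rho F ln p lam c ω) ≤
      H268.msc μ (fun ω' => |(ln ω').1 - (ln ω).1| ≤ 2 ^ (-(Prm.sc c.1 + (q : ℤ))) / 48)
        (rho F ln p lam c) ω +
      H268.msc μ (fun ω' => 2 ^ (-(Prm.sc c.1 + (q : ℤ))) / 48 < |(ln ω').1 - (ln ω).1|)
        (rho F ln p lam c) ω := by
    unfold H268.msc Pr
    rw [← sum_add_distrib]
    refine sum_le_sum fun x _ => ?_
    beta_reduce
    have hx0 := hμ.nonneg x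
    by_cases c1 : rho F ln p lam c x = rho F ln p lam c ω
    · by_cases c2 : |(ln x).1 - (ln ω).1| ≤ 2 ^ (-(Prm.sc c.1 + (q : ℤ))) / 48
      · have e1 := And.intro c1 c2
        rw [if_pos c1, if_pos e1]
        split_ifs <;> linarith
      · have e1 := And.intro c1 (not_le.1 c2)
        rw [if_pos c1, if_pos e1]
        split_ifs <;> linarith
    · simp [c1]
  linarith

open Classical in
/-- **the giants which are not coarse-light**, summed over the columns of one slope system and one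
offset -/
theorem coarse_frame (hμ : IsProb μ) (a : Bool) (cc : ℕ → p.Col)
    (hcc : ∀ j ≤ p.K, Prm.sy (cc j).1 = a ∧ Prm.sc (cc j).1 = p.k₀ + j) (q : ℕ) {τ θ thr : ℝ}
    (hτ : 0 ≤ τ) (hτ1 : τ ≤ 1 / 2) (hθ : 0 < θ) (hθ1 : θ < 1) (hthr : 0 < thr) (hthr1 : thr ≤ 1) :
    ∑ j ∈ range (p.K + 1), H268.ms μ (fun ω =>
      thr ≤ Pr μ (rho F ln p lam (cc j)) (rho F ln p lam (cc j) ω) ∧
      GiC F ln p lam μ q τ (cc j) ω ∧ ¬ CL ln p.k₀ a μ q θ (p.k₀ + j) ω) ≤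
      2 * (2 ^ (q + 6) * τ) * ((q + 6 : ℕ) * (log (1 / thr) / θ + 1)) := by
  set ρ : ℤ → Ω → (ℕ × Lab) × ℤ × ℤ := fun k => rho F ln p lam (cc (k - p.k₀).toNat) with hρdef
  set K : Finset ℤ := (range (p.K + 1)).map
    ((Nat.castEmbedding (R := ℤ)).trans (addLeftEmbedding p.k₀)) with hK
  have hKm : ∀ k ∈ K, ∃ j : ℕ, j ≤ p.K ∧ k = p.k₀ + j := by
    intro k hk
    rw [hK, mem_map] at hk
    obtain ⟨j, hj, rfl⟩ := hk
    exact ⟨j, Nat.lt_succ_iff.1 (mem_range.1 hj), rfl⟩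
  have hsub : ∀ j : ℕ, (p.k₀ + (j : ℤ) - p.k₀).toNat = j := fun j => by
    rw [add_sub_cancel_left, Int.toNat_natCast]
  have h := coarse_geo (μ := μ) (s := fun ω => (ln ω).1) (o := os p.k₀ a) (ρ := ρ) hμ q K (by
    intro k hk
    obtain ⟨j, hj, rfl⟩ := hKm k hk
    intro ω ω' e
    simp only [hρdef] at e
    rw [hsub] at e
    unfold rho at e
    simp only [Prod.mk.injEq] at e
    have e2 := e.2.1
    unfold Prm.S H154.Sc at e2
    rw [(hcc j hj).1, (hcc j hj).2] at e2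
    exact e2) hτ hτ1 hθ hθ1 hthr hthr1
  refine le_trans (le_of_eq ?_) h
  rw [hK, sum_map]
  refine sum_congr rfl fun j hj => ?_
  have hj' := Nat.lt_succ_iff.1 (mem_range.1 hj)
  have ej : ((Nat.castEmbedding (R := ℤ)).trans (addLeftEmbedding p.k₀)) j = p.k₀ + (j : ℤ) := rfl
  rw [ej]
  congr 1
  funext ω
  have e1 : ρ (p.k₀ + (j : ℤ)) = rho F ln p lam (cc j) := by
    simp only [hρdef]
    rw [hsub]
  unfold GiC Gi CL
  rw [(hcc j hj').2, e1]
  rfl

/-- **few columns per line**: a law on columns and flags which only charges coarse-light flags of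
one slope system and one pair of blocks -/
theorem active_le (hμ : IsProb μ) {Q' : p.Col × Ω → ℝ} {a : Bool}
    {bb : Fin (2 ^ p.PP) × Fin (2 ^ p.PP)} {q : ℕ} {θ thr : ℝ} (hθ : 0 < θ) (hθ1 : θ < 1)
    (hthr : 0 < thr) (hthr1 : thr ≤ 1)
    (hsup : ∀ c ω, 0 < Q' (c, ω) → Prm.sy c.1 = a ∧ c.1.2.2 = bb ∧
      thr ≤ Pr μ (fun ω => Prm.S c.1 (ln ω)) (Prm.S c.1 (ln ω)) ∧
      CL ln p.k₀ a μ q θ (Prm.sc c.1) ω) {N₁ : ℕ}
    (hN : (q + 6 : ℕ) * (log (1 / thr) / log (1 / θ) + 1) ≤ N₁) (ω : Ω)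
    {_dec : DecidablePred fun c : p.Col => ∃ ω', ln ω' = ln ω ∧ 0 < Q' (c, ω')} :
    ((univ : Finset p.Col).filter fun c => ∃ ω', ln ω' = ln ω ∧ 0 < Q' (c, ω')).card ≤
      p.nT * N₁ := by
  classical
  -- the slope scales of the active columns
  set J : Finset ℤ := (univ.filter fun j : Fin (p.K + 1) =>
    thr ≤ Pr μ (fun ω => Sc p.k₀ a (p.k₀ + (j : ℕ)) (ln ω)) (Sc p.k₀ a (p.k₀ + (j : ℕ)) (ln ω)) ∧
      CL ln p.k₀ a μ q θ (p.k₀ + (j : ℕ)) ω).map
      (Fin.valEmbedding.trans ((Nat.castEmbedding (R := ℤ)).trans (addLeftEmbedding p.k₀))) with hJ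
  have hcard : (#J : ℝ) ≤ (q + 6 : ℕ) * (log (1 / thr) / log (1 / θ) + 1) := by
    refine count_light hμ (S := fun k ω => Sc p.k₀ a k (ln ω)) (fun k k' hk ω ω' e =>
      Sc_nest hk e) (by omega) hθ hθ1 hthr hthr1 ω J ?_
    intro k hk
    rw [hJ, mem_map] at hk
    obtain ⟨j, hj, rfl⟩ := hk
    exact (mem_filter.1 hj).2
  have hJN : #J ≤ N₁ := by exact_mod_cast hcard.trans hN
  rw [hJ, card_map] at hJN
  -- a column is determined by its slope scale and its offset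
  refine le_trans ?_ (Nat.mul_le_mul_left p.nT hJN)
  rw [mul_comm]
  have hprod : ∀ A : Finset (Fin (p.K + 1)), #A * p.nT = #(A ×ˢ (univ : Finset (Fin p.nT))) := by
    intro A
    rw [card_product, card_univ, Fintype.card_fin]
  rw [hprod]
  refine card_le_card_of_injOn (fun c => (c.1.2.1, c.2)) ?_ ?_
  · intro c hc
    simp only [coe_filter, mem_univ, true_and, Set.mem_ofPred_eq] at hc
    obtain ⟨ω', hl, hq⟩ := hc
    obtain ⟨h1, h2, h3, h4⟩ := hsup c ω' hq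
    simp only [coe_product, coe_filter, mem_univ, true_and, coe_univ, Set.mem_prod,
      Set.mem_ofPred_eq, Set.mem_univ, and_true]
    have e : Prm.sc c.1 = p.k₀ + ((c.1.2.1 : ℕ) : ℤ) := rfl
    unfold Prm.S at h3
    rw [h1, e, hl] at h3
    rw [e] at h4
    exact ⟨h3, (CL_congr hl).1 h4⟩
  · intro c hc c' hc' h
    simp only [coe_filter, mem_univ, true_and, Set.mem_ofPred_eq] at hc hc'
    obtain ⟨ω', -, hq⟩ := hc
    obtain ⟨ω'', -, hq'⟩ := hc'
    obtain ⟨h1, h2, -⟩ := hsup c ω' hq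
    obtain ⟨h1', h2', -⟩ := hsup c' ω'' hq'
    simp only [Prod.mk.injEq] at h
    obtain ⟨⟨s, j, b⟩, i⟩ := c
    obtain ⟨⟨s', j', b'⟩, i'⟩ := c'
    simp only [Prm.sy] at h1 h1'
    simp only at h h2 h2'
    rw [h1, h1', h2, h2', h.1, h.2]

/-- **growth along the lines** for a law on the coarse-light flags -/
theorem growth_cl (hμ : IsProb μ) {Q' : p.Col × Ω → ℝ} (hQ : IsProb Q') {a : Bool}
    {bb : Fin (2 ^ p.PP) × Fin (2 ^ p.PP)} {q : ℕ} {θ thr : ℝ} (hθ : 0 < θ) (hθ1 : θ < 1)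
    (hthr : 0 < thr) (hthr1 : thr ≤ 1)
    (hsup : ∀ c ω, 0 < Q' (c, ω) → Prm.sy c.1 = a ∧ c.1.2.2 = bb ∧
      thr ≤ Pr μ (fun ω => Prm.S c.1 (ln ω)) (Prm.S c.1 (ln ω)) ∧
      CL ln p.k₀ a μ q θ (Prm.sc c.1) ω) {N₁ : ℕ}
    (hN : (q + 6 : ℕ) * (log (1 / thr) / log (1 / θ) + 1) ≤ N₁)
    {ν : Ω → ℝ} (hν : IsProb ν) {C : ℝ} (hC : 0 < C) (hle : ∀ t, Q' t ≤ C / p.nT * ν t.2)
    {α : Type*} (W : Ω → α) {s : ℝ}
    (hs : ∀ t, 0 < Q' t → s ≤ - log (Pr ν (fun ω => (W ω, ln ω)) (W t.2, ln t.2) /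
      Pr ν ln (ln t.2))) :
    s - log (C * N₁) ≤ Hc Q' (fun t => W t.2) (fun t => (t.1, ln t.2)) := by
  have hnT : (0 : ℝ) < p.nT := by exact_mod_cast p.nT_pos
  have h := H353.growth (c := C / p.nT) hQ hν (by positivity) hle W ln (p.nT * N₁)
    (fun ω _ => active_le hμ hθ hθ1 hthr hthr1 hsup hN ω) hs
  have e : C / p.nT * ((p.nT * N₁ : ℕ) : ℝ) = C * N₁ := by
    push_cast
    field_simp
  rwa [e] at h

end Vale.Agent.P065.H654
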