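import Vale.Agent.P065.H654.Coarse
import Vale.Agent.P065.H725.Cells

/-!
# P065, package SGIANT, part (5): coarse-light columns, slopes (helper654)

The fine boxes `ρ k` determine the slope cell of scale `k`; a flag is a giant at `k` if the
flags of its fine box at slope distance at most `2 ^ (-(k + q)) / 48` have relative mass less than
`τ`.
-/

set_option autoImplicit false

open Finset Real

noncomputable section

namespace Vale.Agent.P065.H654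

open Vale.Agent.P065.Ent Vale.Agent.P065.H268 Vale.Agent.P065.H725

variable {Ω : Type*} [Fintype Ω] {α : Type*} {μ : Ω → ℝ}

/-- giants of the column `k` -/
def Gi (μ : Ω → ℝ) (s : Ω → ℝ) (ρ : ℤ → Ω → α) (q : ℕ) (τ : ℝ) (k : ℤ) (ω : Ω) : Prop :=
  H268.msc μ (fun ω' => |s ω' - s ω| ≤ 2 ^ (-(k + (q : ℤ))) / 48) (ρ k) ω < τ * Pr μ (ρ k) (ρ k ω)

lemma close_of_sub {o : ℝ} {k : ℤ} {q : ℕ} {x y : ℝ}
    (h : dy o (k + ((q + 6 : ℕ) : ℤ)) x = dy o (k + ((q + 6 : ℕ) : ℤ)) y) :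
    |x - y| ≤ 2 ^ (-(k + (q : ℤ))) / 48 := by
  have h1 := dy_close h
  have e : (2 : ℝ) ^ (-(k + ((q + 6 : ℕ) : ℤ))) = 2 ^ (-(k + (q : ℤ))) / 64 := by
    have : -(k + ((q + 6 : ℕ) : ℤ)) = -(k + (q : ℤ)) - 6 := by push_cast; ring
    rw [this, zpow_sub₀ (by norm_num)]
    norm_num
  rw [e] at h1
  have h2 : (0 : ℝ) < 2 ^ (-(k + (q : ℤ))) := by positivity
  linarith

open Classical in
/-- the giants of one box have small mass -/
lemma giant_mass (hμ : IsProb μ) {s : Ω → ℝ} {o : ℝ} {ρ : ℤ → Ω → α}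
    {k : ℤ} (hρ : Det (ρ k) (fun ω => dy o k (s ω))) (q : ℕ) {τ : ℝ} (hτ : 0 ≤ τ) (ω : Ω) :
    H268.msc μ (Gi μ s ρ q τ k) (ρ k) ω ≤ 2 ^ (q + 6) * τ * Pr μ (ρ k) (ρ k ω) := by
  have e1 : H268.msc μ (Gi μ s ρ q τ k) (ρ k) ω = ∑ b : Fin (2 ^ (q + 6)), ∑ ω',
      if blk o (q + 6) k (s ω') = b ∧ (ρ k ω' = ρ k ω ∧ Gi μ s ρ q τ k ω') then μ ω' else 0 := by
    unfold H268.msc
    rw [sum_comm]
    refine sum_congr rfl fun ω' _ => ?_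
    by_cases h : ρ k ω' = ρ k ω ∧ Gi μ s ρ q τ k ω'
    · simp only [h, and_true, if_true]
      rw [sum_ite_eq, if_pos (mem_univ _)]
    · simp only [h, and_false, if_false, sum_const_zero]
  rw [e1]
  have h2 : ∀ b : Fin (2 ^ (q + 6)), (∑ ω',
      if blk o (q + 6) k (s ω') = b ∧ (ρ k ω' = ρ k ω ∧ Gi μ s ρ q τ k ω') then μ ω' else 0) ≤
      τ * Pr μ (ρ k) (ρ k ω) := by
    intro b
    by_cases hex : ∃ ω₀, blk o (q + 6) k (s ω₀) = b ∧ (ρ k ω₀ = ρ k ω ∧ Gi μ s ρ q τ k ω₀)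
    · obtain ⟨ω₀, hb, hr, hg⟩ := hex
      have h3 : H268.msc μ (fun ω' => |s ω' - s ω₀| ≤ 2 ^ (-(k + (q : ℤ))) / 48) (ρ k) ω₀ <
        τ * Pr μ (ρ k) (ρ k ω₀) := hg
      rw [hr] at h3
      refine le_trans ?_ h3.le
      unfold H268.msc
      refine sum_le_sum fun x _ => ?_
      by_cases hx : blk o (q + 6) k (s x) = b ∧ (ρ k x = ρ k ω ∧ Gi μ s ρ q τ k x)
      · have c1 : ρ k x = ρ k ω₀ := hx.2.1.trans hr.symm
        have c2 : dy o (k + ((q + 6 : ℕ) : ℤ)) (s x) = dy o (k + ((q + 6 : ℕ) : ℤ)) (s ω₀) :=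
          blk_inj (hρ x ω₀ c1) (hx.1.trans hb.symm)
        rw [if_pos hx, if_pos ⟨c1, close_of_sub c2⟩]
      · rw [if_neg hx]
        split_ifs
        · exact hμ.nonneg x
        · exact le_rfl
    · push Not at hex
      rw [sum_eq_zero fun x _ => if_neg fun h => hex x h.1 h.2.1 h.2.2]
      exact mul_nonneg hτ (Pr_nonneg hμ _ _)
  calc _ ≤ ∑ _b : Fin (2 ^ (q + 6)), τ * Pr μ (ρ k) (ρ k ω) := sum_le_sum fun b _ => h2 b
    _ = 2 ^ (q + 6) * τ * Pr μ (ρ k) (ρ k ω) := by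
      rw [sum_const, card_univ, Fintype.card_fin, nsmul_eq_mul]
      push_cast
      ring

/-- half of the box of a giant is outside its own sub-cell -/
lemma giant_far (hμ : IsProb μ) {s : Ω → ℝ} {o : ℝ} {ρ : ℤ → Ω → α}
    (q : ℕ) {τ : ℝ} (k : ℤ) (ω : Ω) (h : Gi μ s ρ q τ k ω) :
    (1 - τ) * Pr μ (ρ k) (ρ k ω) ≤
      H268.msc μ (fun ω' => dy o (k + ((q + 6 : ℕ) : ℤ)) (s ω') ≠
        dy o (k + ((q + 6 : ℕ) : ℤ)) (s ω)) (ρ k) ω := by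
  classical
  unfold Gi at h
  have h1 : Pr μ (ρ k) (ρ k ω) ≤
      H268.msc μ (fun ω' => |s ω' - s ω| ≤ 2 ^ (-(k + (q : ℤ))) / 48) (ρ k) ω +
      H268.msc μ (fun ω' => dy o (k + ((q + 6 : ℕ) : ℤ)) (s ω') ≠
        dy o (k + ((q + 6 : ℕ) : ℤ)) (s ω)) (ρ k) ω := by
    unfold H268.msc Pr
    rw [← sum_add_distrib]
    refine sum_le_sum fun x _ => ?_
    beta_reduce
    have hx0 := hμ.nonneg x
    by_cases c1 : ρ k x = ρ k ω
    · by_cases c2 : dy o (k + ((q + 6 : ℕ) : ℤ)) (s x) = dy o (k + ((q + 6 : ℕ) : ℤ)) (s ω)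
      · have e1 : ρ k x = ρ k ω ∧ |s x - s ω| ≤ 2 ^ (-(k + (q : ℤ))) / 48 :=
          ⟨c1, close_of_sub c2⟩
        rw [if_pos c1, if_pos e1]
        split_ifs
        · linarith
        · linarith
      · have e1 : ρ k x = ρ k ω ∧ dy o (k + ((q + 6 : ℕ) : ℤ)) (s x) ≠
          dy o (k + ((q + 6 : ℕ) : ℤ)) (s ω) := ⟨c1, c2⟩
        rw [if_pos c1, if_pos e1]
        split_ifs
        · linarith
        · linarith
    · simp [c1]
  linarith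

/-- **up to a small mass, every giant is coarse-light** -/
theorem coarse_geo (hμ : IsProb μ) {s : Ω → ℝ} {o : ℝ} {ρ : ℤ → Ω → α}
    (q : ℕ) (K : Finset ℤ) (hρ : ∀ k ∈ K, Det (ρ k) (fun ω => dy o k (s ω))) {τ θ thr : ℝ}
    (hτ : 0 ≤ τ) (hτ1 : τ ≤ 1 / 2) (hθ : 0 < θ) (hθ1 : θ < 1) (hthr : 0 < thr) (hthr1 : thr ≤ 1) :
    ∑ k ∈ K, H268.ms μ (fun ω => thr ≤ Pr μ (ρ k) (ρ k ω) ∧ Gi μ s ρ q τ k ω ∧
      ¬ Lt μ (fun k ω => dy o k (s ω)) (q + 6) θ k ω) ≤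
      2 * (2 ^ (q + 6) * τ) * ((q + 6 : ℕ) * (log (1 / thr) / θ + 1)) := by
  refine giants_coarse hμ (S := fun k ω => dy o k (s ω)) (ρ := ρ) (Gi := Gi μ s ρ q τ) ?_
    (by omega) K hρ (by positivity) hθ hθ1 hthr hthr1 ?_ ?_
  · intro k k' hk ω ω' h
    exact dy_nest hk h
  · intro k hk ω
    exact giant_mass hμ (hρ k hk) q hτ ω
  · intro k _ ω _ hg _
    refine le_trans ?_ (giant_far hμ q k ω hg)
    exact mul_le_mul_of_nonneg_right (by linarith) (Pr_nonneg hμ _ _)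

/-- the mass of the flags which are giants in some column where they are not coarse-light -/
theorem coarse_geo_ex (hμ : IsProb μ) {s : Ω → ℝ} {o : ℝ} {ρ : ℤ → Ω → α}
    (q : ℕ) (K : Finset ℤ) (hρ : ∀ k ∈ K, Det (ρ k) (fun ω => dy o k (s ω))) {τ θ thr : ℝ}
    (hτ : 0 ≤ τ) (hτ1 : τ ≤ 1 / 2) (hθ : 0 < θ) (hθ1 : θ < 1) (hthr : 0 < thr) (hthr1 : thr ≤ 1) :
    H268.ms μ (fun ω => ∃ k ∈ K, thr ≤ Pr μ (ρ k) (ρ k ω) ∧ Gi μ s ρ q τ k ω ∧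
      ¬ Lt μ (fun k ω => dy o k (s ω)) (q + 6) θ k ω) ≤
      2 * (2 ^ (q + 6) * τ) * ((q + 6 : ℕ) * (log (1 / thr) / θ + 1)) :=
  (ms_exists_le hμ K _).trans (coarse_geo hμ q K hρ hτ hτ1 hθ hθ1 hthr hthr1)

end Vale.Agent.P065.H654
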