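import Mathlib

/-!
# P065, package NG: the final arithmetic of the class bound (helper654)

`p₁` is the mass of a set of lines of a rich class in which few pairs cross (`X ≤ 52 d`).
The crossing lemma for sets of lines then bounds `p₁` by a power of `d`.
-/

set_option autoImplicit false

namespace Vale.Agent.P065.H654

open Real

/-- few crossing pairs, so the set of lines is small -/
theorem ng_end {γ A p₁ d X : ℝ} (hγ0 : 0 ≤ γ) (hγ1 : γ < 1) (hp : 0 < p₁) (hp1 : p₁ ≤ 1)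
    (hd : 0 < d) (hd1 : d ≤ 1) (hX : X ≤ 52 * d) (hA : 1 / (6 * d) ≤ A)
    (cross : ∀ R : ℝ, 1 ≤ R → 16 * R ≤ A * p₁ → X ≤ p₁ ^ 2 / (2 * R) →
      (1 - γ) * log (R / 2) ≤ 2 * log (1 / p₁) + 12) :
    (1 - γ) * log (1 / d) ≤ 4 * log (1 / p₁) + 18 := by
  have hlp : 0 ≤ log (1 / p₁) := log_nonneg (by rw [le_div_iff₀ hp]; linarith)
  have hld : 0 ≤ log (1 / d) := log_nonneg (by rw [le_div_iff₀ hd]; linarith)
  have h1γ : 0 < 1 - γ := by linarith
  -- `log 208 ≤ 6`
  have h208 : log 208 ≤ 6 := by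
    have h2 : log 2 < 0.6931471808 := log_two_lt_d9
    have : log 208 ≤ log (2 ^ 8) := log_le_log (by norm_num) (by norm_num)
    rw [log_pow] at this
    push_cast at this
    nlinarith
  have h104 : log 104 ≤ 6 := (log_le_log (by norm_num) (by norm_num)).trans h208
  have hA0 : 0 < A := lt_of_lt_of_le (by positivity) hA
  by_cases hR : 1 ≤ p₁ ^ 2 / (104 * d)
  · have hR0 : 0 < p₁ ^ 2 / (104 * d) := by positivity
    have e1 : 16 * (p₁ ^ 2 / (104 * d)) ≤ A * p₁ := by
      have : 16 * (p₁ ^ 2 / (104 * d)) ≤ (1 / (6 * d)) * p₁ := by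
        rw [div_mul_eq_mul_div, one_mul, mul_div_assoc', div_le_div_iff₀ (by positivity)
          (by positivity)]
        have : p₁ ^ 2 ≤ p₁ := by nlinarith
        nlinarith [mul_le_mul_of_nonneg_right this hd.le]
      exact this.trans (mul_le_mul_of_nonneg_right hA hp.le)
    have e2 : X ≤ p₁ ^ 2 / (2 * (p₁ ^ 2 / (104 * d))) := by
      have : p₁ ^ 2 / (2 * (p₁ ^ 2 / (104 * d))) = 52 * d := by
        field_simp
        ring
      rw [this]
      exact hX
    have h := cross _ hR e1 e2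
    have e3 : log (p₁ ^ 2 / (104 * d) / 2) = log (1 / d) - log 208 - 2 * log (1 / p₁) := by
      have : p₁ ^ 2 / (104 * d) / 2 = (1 / d) / 208 / (1 / p₁) ^ 2 := by
        field_simp
        norm_num
      rw [this, log_div (by positivity) (by positivity), log_div (by positivity) (by norm_num),
        log_pow]
      push_cast
      ring
    rw [e3] at h
    nlinarith
  · push Not at hR
    have h1 : p₁ ^ 2 < 104 * d := by
      rw [div_lt_one (by positivity)] at hR
      exact hR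
    have h2 : log (p₁ ^ 2) ≤ log (104 * d) := log_le_log (by positivity) h1.le
    rw [log_pow, log_mul (by norm_num) hd.ne'] at h2
    push_cast at h2
    have h3 : log (1 / d) = - log d := by rw [one_div, log_inv]
    have h4 : log (1 / p₁) = - log p₁ := by rw [one_div, log_inv]
    rw [h3] at hld
    rw [h4] at hlp
    rw [h3, h4]
    have h5 : (1 - γ) * -log d ≤ 1 * -log d := mul_le_mul_of_nonneg_right (by linarith) hld
    linarith

/-- the same with `d = 2 ^ (-3m/2)` and a loss `2 ^ N` -/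
theorem ng_end2 {γ A p p₁ X : ℝ} {m N : ℝ} (hγ0 : 0 ≤ γ) (hγ1 : γ < 1) (hm : 0 ≤ m)
    (hp : 0 < p₁) (hp1 : p₁ ≤ 1) (hpp : p ≤ 2 ^ N * p₁)
    (hX : X ≤ 52 * (1 / 2 : ℝ) ^ (3 * m / 2)) (hA : (2 : ℝ) ^ (3 * m / 2) ≤ 6 * A)
    (cross : ∀ R : ℝ, 1 ≤ R → 16 * R ≤ A * p₁ → X ≤ p₁ ^ 2 / (2 * R) →
      (1 - γ) * log (R / 2) ≤ 2 * log (1 / p₁) + 12)
    (hN : N * log 2 + 5 ≤ (1 - γ) * m / 8) :
    p ≤ exp (-((1 - γ) * m / 8)) := by
  set d : ℝ := (1 / 2 : ℝ) ^ (3 * m / 2) with hd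
  have hd0 : 0 < d := by positivity
  have hd1 : d ≤ 1 := rpow_le_one (by norm_num) (by norm_num) (by positivity)
  have hdinv : 1 / d = (2 : ℝ) ^ (3 * m / 2) := by
    rw [hd, one_div, one_div, inv_rpow (by norm_num), inv_inv]
  have hA' : 1 / (6 * d) ≤ A := by
    have : 1 / (6 * d) = (2 : ℝ) ^ (3 * m / 2) / 6 := by
      rw [← hdinv]
      field_simp
    rw [this]
    linarith
  have h := ng_end hγ0 hγ1 hp hp1 hd0 hd1 hX hA' cross
  rw [hdinv, log_rpow (by norm_num), one_div, log_inv] at h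
  have hl2 : 0.6931471803 < log 2 := log_two_gt_d9
  have h1γ : 0 < 1 - γ := by linarith
  -- `log p₁ ≤ - (1 - γ) m / 4 + 9 / 2`
  have h1 : log p₁ ≤ -((1 - γ) * m / 4) + 9 / 2 := by
    have : (1 - γ) * m ≤ (1 - γ) * (3 * m / 2 * log 2) := by
      refine mul_le_mul_of_nonneg_left ?_ h1γ.le
      nlinarith
    linarith
  have h2 : p₁ ≤ exp (-((1 - γ) * m / 4) + 9 / 2) := by
    rw [← exp_log hp]
    exact exp_le_exp.2 h1
  have h3 : (2 : ℝ) ^ N = exp (N * log 2) := by
    rw [rpow_def_of_pos (by norm_num), mul_comm]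
  refine hpp.trans ?_
  rw [h3]
  calc exp (N * log 2) * p₁ ≤ exp (N * log 2) * exp (-((1 - γ) * m / 4) + 9 / 2) :=
        mul_le_mul_of_nonneg_left h2 (exp_pos _).le
    _ = exp (N * log 2 + (-((1 - γ) * m / 4) + 9 / 2)) := (exp_add _ _).symm
    _ ≤ exp (-((1 - γ) * m / 8)) := exp_le_exp.2 (by linarith)

end Vale.Agent.P065.H654
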