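import Vale.Agent.P065.H654.CoarseFr
import Vale.Agent.P065.H154.FrameGuard
import Vale.Agent.P065.H725.ColPer

/-!
# P065, package SGIANT: the law of the slope giants (helper654)

`B` : the big boxes. `GG a i j` : at the slope scale `j`, system `a`, offset `i` the flag is in a
big box, a giant of it and coarse-light. `Sel` : the largest such scale. `QG` : the law of a
column with slope system `a` and blocks zero and of a flag selected in this column.
-/

set_option autoImplicit false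
set_option linter.unusedSectionVars false

open Finset Real

noncomputable section

namespace Vale.Agent.P065.H654

open Vale.Agent.P065.UB Vale.Agent.P065.Ent Vale.Agent.P065.H725 Vale.Agent.P065.H154

variable {Ω : Type*} [Fintype Ω]

/-- the zero block -/
def bz (p : Prm) : Fin (2 ^ p.PP) := ⟨0, by positivity⟩

/-- the columns of one slope system with blocks zero -/
def col0 {p : Prm} (a : Bool) (i : Fin p.nT) (j : Fin (p.K + 1)) : p.Col :=
  ((a, j, bz p, bz p), i)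

/-- selectable flags -/
def GG (F : Fr Ω) (ln : Ω → Pt) (p : Prm) {Lab : Type*} (lam : Ω → Lab) (μ : Ω → ℝ) (q : ℕ)
    (τ θ : ℝ) (B : p.Col → Ω → Prop) (a : Bool) (i : Fin p.nT) (j : Fin (p.K + 1)) (ω : Ω) :
    Prop :=
  B (col0 a i j) ω ∧ GiC F ln p lam μ q τ (col0 a i j) ω ∧
    CL ln p.k₀ a μ q θ (p.k₀ + (j : ℕ)) ω

/-- flags which are selectable at some scale -/
def GX (F : Fr Ω) (ln : Ω → Pt) (p : Prm) {Lab : Type*} (lam : Ω → Lab) (μ : Ω → ℝ) (q : ℕ)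
    (τ θ : ℝ) (B : p.Col → Ω → Prop) (a : Bool) (i : Fin p.nT) (ω : Ω) : Prop :=
  ∃ j, GG F ln p lam μ q τ θ B a i j ω

/-- selected flags: the largest scale -/
def Sel (F : Fr Ω) (ln : Ω → Pt) (p : Prm) {Lab : Type*} (lam : Ω → Lab) (μ : Ω → ℝ) (q : ℕ)
    (τ θ : ℝ) (B : p.Col → Ω → Prop) (a : Bool) (c : p.Col) (ω : Ω) : Prop :=
  c = col0 a c.2 c.1.2.1 ∧ GG F ln p lam μ q τ θ B a c.2 c.1.2.1 ω ∧
    ∀ j', c.1.2.1 < j' → ¬ GG F ln p lam μ q τ θ B a c.2 j' ω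

/-- the total mass -/
def Za (F : Fr Ω) (ln : Ω → Pt) (p : Prm) {Lab : Type*} (lam : Ω → Lab) (μ : Ω → ℝ) (q : ℕ)
    (τ θ : ℝ) (B : p.Col → Ω → Prop) (a : Bool) : ℝ :=
  ∑ i : Fin p.nT, H268.ms μ (GX F ln p lam μ q τ θ B a i)

open Classical in
/-- **the law of the giants** -/
def QG (F : Fr Ω) (ln : Ω → Pt) (p : Prm) {Lab : Type*} (lam : Ω → Lab) (μ : Ω → ℝ) (q : ℕ)
    (τ θ : ℝ) (B : p.Col → Ω → Prop) (a : Bool) (t : p.Col × Ω) : ℝ :=
  if Sel F ln p lam μ q τ θ B a t.1 t.2 then μ t.2 / Za F ln p lam μ q τ θ B a else 0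

variable {F : Fr Ω} {ln : Ω → Pt} {p : Prm} {Lab : Type*} {lam : Ω → Lab} {μ : Ω → ℝ} {q : ℕ}
  {τ θ : ℝ} {B : p.Col → Ω → Prop} {a : Bool}

/-- the selected column is unique for a flag and an offset -/
lemma Sel.unique {κ κ' : p.Kap} {i : Fin p.nT} {ω : Ω}
    (h : Sel F ln p lam μ q τ θ B a (κ, i) ω) (h' : Sel F ln p lam μ q τ θ B a (κ', i) ω) :
    κ = κ' := by
  obtain ⟨h1, h2, h3⟩ := h
  obtain ⟨h1', h2', h3'⟩ := h'
  have e : κ.2.1 = κ'.2.1 := by
    rcases lt_trichotomy κ.2.1 κ'.2.1 with h4 | h4 | h4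
    · exact absurd h2' (h3 _ h4)
    · exact h4
    · exact absurd h2 (h3' _ h4)
  have e1 := (Prod.ext_iff.1 h1).1
  have e2 := (Prod.ext_iff.1 h1').1
  simp only [col0] at e1 e2
  rw [e1, e2, e]

lemma Sel.exists {i : Fin p.nT} {ω : Ω} (h : ∃ j, GG F ln p lam μ q τ θ B a i j ω) :
    ∃ κ : p.Kap, Sel F ln p lam μ q τ θ B a (κ, i) ω := by
  classical
  obtain ⟨j₀, hj₀⟩ := h
  obtain ⟨j, hj, hmax⟩ := (univ.filter fun j => GG F ln p lam μ q τ θ B a i j ω).exists_max_image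
    id ⟨j₀, mem_filter.2 ⟨mem_univ _, hj₀⟩⟩
  refine ⟨(a, j, bz p, bz p), rfl, (mem_filter.1 hj).2, fun j' hj' hG => ?_⟩
  have := hmax j' (mem_filter.2 ⟨mem_univ _, hG⟩)
  exact absurd this (not_le.2 hj')

open Classical in
/-- the columns of one flag and one offset -/
lemma sum_Sel (i : Fin p.nT) (ω : Ω) (x : ℝ) :
    ∑ κ : p.Kap, (if Sel F ln p lam μ q τ θ B a (κ, i) ω then x else 0) =
      if GX F ln p lam μ q τ θ B a i ω then x else 0 := by
  by_cases h : GX F ln p lam μ q τ θ B a i ω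
  · rw [if_pos h]
    obtain ⟨κ, hκ⟩ := Sel.exists h
    rw [sum_eq_single κ, if_pos hκ]
    · intro κ' _ hne
      rw [if_neg fun h' => hne (h'.unique hκ)]
    · intro h'
      exact absurd (mem_univ _) h'
  · rw [if_neg h]
    refine sum_eq_zero fun κ _ => ?_
    rw [if_neg]
    intro hS
    exact h ⟨_, hS.2.1⟩

/-- the marginal of the flags and the offset -/
lemma sum_QG (i : Fin p.nT) (ω : Ω) :
    ∑ κ : p.Kap, QG F ln p lam μ q τ θ B a ((κ, i), ω) ≤
      |μ ω / Za F ln p lam μ q τ θ B a| := by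
  classical
  unfold QG
  simp only
  rw [sum_Sel]
  split_ifs
  · exact le_abs_self _
  · exact abs_nonneg _

lemma Za_nonneg (hμ : IsProb μ) : 0 ≤ Za F ln p lam μ q τ θ B a :=
  sum_nonneg fun _ _ => H268.ms_nonneg' hμ.nonneg _

/-- **the law is a probability** -/
theorem QG_isProb (hμ : IsProb μ) (hZ : 0 < Za F ln p lam μ q τ θ B a) :
    IsProb (QG F ln p lam μ q τ θ B a) := by
  classical
  constructor
  · intro t
    unfold QG
    split_ifs
    · exact div_nonneg (hμ.nonneg _) hZ.le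
    · exact le_rfl
  · rw [Fintype.sum_prod_type]
    have e : ∀ c : p.Col, ∑ ω, QG F ln p lam μ q τ θ B a (c, ω) =
        ∑ ω, if Sel F ln p lam μ q τ θ B a c ω then μ ω / Za F ln p lam μ q τ θ B a else 0 :=
      fun c => rfl
    simp only [e]
    rw [Fintype.sum_prod_type, sum_comm]
    have e2 : ∀ i : Fin p.nT, ∑ κ : p.Kap, ∑ ω,
        (if Sel F ln p lam μ q τ θ B a (κ, i) ω then μ ω / Za F ln p lam μ q τ θ B a else 0) =
        H268.ms μ (GX F ln p lam μ q τ θ B a i) /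
          Za F ln p lam μ q τ θ B a := by
      intro i
      rw [sum_comm]
      unfold H268.ms
      rw [sum_div]
      refine sum_congr rfl fun ω _ => ?_
      rw [sum_Sel]
      split_ifs
      · rfl
      · rw [zero_div]
    rw [sum_congr rfl fun i _ => e2 i, ← sum_div]
    exact div_self hZ.ne'

/-- **the density** -/
theorem QG_le (hμ : IsProb μ) {c₁ : ℝ} (hc : 0 < c₁)
    (hZ : c₁ * p.nT ≤ Za F ln p lam μ q τ θ B a) (t : p.Col × Ω) :
    QG F ln p lam μ q τ θ B a t ≤ 1 / c₁ / p.nT * μ t.2 := by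
  classical
  have hnT : (0 : ℝ) < p.nT := by exact_mod_cast p.nT_pos
  have h0 := hμ.nonneg t.2
  unfold QG
  split_ifs
  · rw [div_div, one_div, ← div_eq_inv_mul]
    exact div_le_div_of_nonneg_left h0 (by positivity) hZ
  · positivity

/-- **the support** -/
theorem QG_supp {t : p.Col × Ω} (h : 0 < QG F ln p lam μ q τ θ B a t) :
    Sel F ln p lam μ q τ θ B a t.1 t.2 := by
  classical
  unfold QG at h
  by_contra hn
  rw [if_neg hn] at h
  exact lt_irrefl _ h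

/-- what a selected flag satisfies -/
theorem QG_supp' {c : p.Col} {ω : Ω} (h : 0 < QG F ln p lam μ q τ θ B a (c, ω)) :
    Prm.sy c.1 = a ∧ c.1.2.2 = (bz p, bz p) ∧ B c ω ∧ GiC F ln p lam μ q τ c ω ∧
      CL ln p.k₀ a μ q θ (Prm.sc c.1) ω := by
  obtain ⟨h1, h2, -⟩ := QG_supp h
  simp only at h1 h2
  obtain ⟨h3, h4, h5⟩ := h2
  rw [← h1] at h3 h4
  refine ⟨?_, ?_, h3, h4, h5⟩
  · rw [h1]; rfl
  · rw [h1]; rfl

/-- the flags have positive mass -/
theorem QG_pos (hμ : IsProb μ) {c : p.Col} {ω : Ω} (h : 0 < QG F ln p lam μ q τ θ B a (c, ω)) :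
    0 < μ ω := by
  rcases (hμ.nonneg ω).eq_or_lt with h0 | h0
  · exfalso
    classical
    unfold QG at h
    simp only at h
    rw [← h0, zero_div, ite_self] at h
    exact lt_irrefl _ h
  · exact h0

/-- one slope scale per flag and offset -/
theorem QG_one {κ κ' : p.Kap} {i : Fin p.nT} {ω : Ω}
    (h : 0 < QG F ln p lam μ q τ θ B a ((κ, i), ω))
    (h' : 0 < QG F ln p lam μ q τ θ B a ((κ', i), ω)) : κ = κ' :=
  (QG_supp h).unique (QG_supp h')

/-! ## Periodicity -/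

/-- a predicate of columns and flags which depends on the offset modulo the fine unit only -/
def BPer (F : Fr Ω) (p : Prm) (B : p.Col → Ω → Prop) : Prop :=
  ∀ (k : p.Kap) (i i' : Fin p.nT) (ω : Ω),
    (i : ℕ) % (3 * 2 ^ (Prm.ex k - F.T' ω)) = i' % (3 * 2 ^ (Prm.ex k - F.T' ω)) →
      (B (k, i) ω ↔ B (k, i') ω)

/-- giants are periodic -/
theorem GiC_per (hM : F.Tm ≤ p.M) : BPer F p (GiC F ln p lam μ q τ) := by
  classical
  intro k i i' ω h
  have e := Pr_rho_per (F := F) (ln := ln) (p := p) (lam := lam) (μ := μ) hM k h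
  have e2 : H268.msc μ (fun ω' => |(ln ω').1 - (ln ω).1| ≤
      2 ^ (-(Prm.sc (k, i).1 + (q : ℤ))) / 48) (rho F ln p lam (k, i)) ω =
      H268.msc μ (fun ω' => |(ln ω').1 - (ln ω).1| ≤
      2 ^ (-(Prm.sc (k, i').1 + (q : ℤ))) / 48) (rho F ln p lam (k, i')) ω := by
    unfold H268.msc
    refine sum_congr rfl fun ω' _ => ?_
    have e1 := rho_iff (F := F) (lam := lam) (ln := ln) (ω' := ω') hM k h
    by_cases h1 : rho F ln p lam (k, i) ω' = rho F ln p lam (k, i) ω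
    · have h2 := e1.1 h1
      by_cases h3 : |(ln ω').1 - (ln ω).1| ≤ 2 ^ (-(Prm.sc (k, i).1 + (q : ℤ))) / 48
      · rw [if_pos ⟨h1, h3⟩, if_pos ⟨h2, h3⟩]
      · rw [if_neg fun h4 => h3 h4.2, if_neg fun h4 => h3 h4.2]
    · rw [if_neg fun h4 => h1 h4.1, if_neg fun h4 => h1 (e1.2 h4.1)]
  unfold GiC
  rw [e, e2]

lemma GG_per (hM : F.Tm ≤ p.M) (hB : BPer F p B) (j j₀ : Fin (p.K + 1)) (hj : j₀ ≤ j)
    {i i' : Fin p.nT} {ω : Ω} (b b' : Fin (2 ^ p.PP))
    (h : (i : ℕ) % (3 * 2 ^ (Prm.ex (p := p) (a, j₀, b, b') - F.T' ω)) =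
      i' % (3 * 2 ^ (Prm.ex (p := p) (a, j₀, b, b') - F.T' ω))) :
    GG F ln p lam μ q τ θ B a i j ω ↔ GG F ln p lam μ q τ θ B a i' j ω := by
  have hd : 3 * 2 ^ (Prm.ex (p := p) (a, j, bz p, bz p) - F.T' ω) ∣
      3 * 2 ^ (Prm.ex (p := p) (a, j₀, b, b') - F.T' ω) := by
    refine Nat.mul_dvd_mul_left 3 (pow_dvd_pow 2 ?_)
    have hj' : (j₀ : ℕ) ≤ j := hj
    unfold Prm.ex
    simp only
    omega
  have h2 : (i : ℕ) % (3 * 2 ^ (Prm.ex (p := p) (a, j, bz p, bz p) - F.T' ω)) =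
      i' % (3 * 2 ^ (Prm.ex (p := p) (a, j, bz p, bz p) - F.T' ω)) := by
    rw [← Nat.mod_mod_of_dvd (i : ℕ) hd, h, Nat.mod_mod_of_dvd _ hd]
  unfold GG
  have e1 := hB (a, j, bz p, bz p) i i' ω h2
  have e2 := GiC_per (ln := ln) (lam := lam) (μ := μ) (q := q) (τ := τ) hM (a, j, bz p, bz p)
    i i' ω h2
  unfold col0
  rw [e1, e2]

/-- **the law is periodic** -/
theorem QG_per (hM : F.Tm ≤ p.M) (hB : BPer F p B) : LPer F p (QG F ln p lam μ q τ θ B a) := by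
  classical
  intro k i i' ω h
  unfold QG
  have e : Sel F ln p lam μ q τ θ B a (k, i) ω ↔ Sel F ln p lam μ q τ θ B a (k, i') ω := by
    obtain ⟨s, j, b, b'⟩ := k
    unfold Sel
    simp only
    constructor
    · rintro ⟨h1, h2, h3⟩
      have e0 := (Prod.ext_iff.1 h1).1
      simp only [col0] at e0
      have es : s = a := (Prod.ext_iff.1 e0).1
      subst es
      refine ⟨?_, (GG_per hM hB j j le_rfl b b' h).1 h2, fun j' hj' hG =>
        h3 j' hj' ((GG_per hM hB j' j hj'.le b b' h).2 hG)⟩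
      exact Prod.ext e0 rfl
    · rintro ⟨h1, h2, h3⟩
      have e0 := (Prod.ext_iff.1 h1).1
      simp only [col0] at e0
      have es : s = a := (Prod.ext_iff.1 e0).1
      subst es
      refine ⟨?_, (GG_per hM hB j j le_rfl b b' h).2 h2, fun j' hj' hG =>
        h3 j' hj' ((GG_per hM hB j' j hj'.le b b' h).1 hG)⟩
      exact Prod.ext e0 rfl
  simp only [e]

/-! ## The mass -/

/-- giants do not depend on the blocks -/
lemma GiC_block (κ : p.Kap) (i : Fin p.nT) (ω : Ω) :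
    GiC F ln p lam μ q τ (κ, i) ω ↔ GiC F ln p lam μ q τ (col0 κ.1 i κ.2.1) ω := Iff.rfl

/-- giants of big boxes which are not coarse-light -/
def NL (F : Fr Ω) (ln : Ω → Pt) (p : Prm) {Lab : Type*} (lam : Ω → Lab) (μ : Ω → ℝ) (q : ℕ)
    (τ θ : ℝ) (B : p.Col → Ω → Prop) (a : Bool) (i : Fin p.nT) (j : Fin (p.K + 1)) (ω : Ω) :
    Prop :=
  0 < μ ω ∧ B (col0 a i j) ω ∧ GiC F ln p lam μ q τ (col0 a i j) ω ∧
    ¬ CL ln p.k₀ a μ q θ (p.k₀ + (j : ℕ)) ω

open Classical in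
/-- **case (I) of the selection of the columns gives a slope system with many selected flags** -/
theorem exists_a (hμ : IsProb μ) {c₁ thr : ℝ}
    (hτ : 0 ≤ τ) (hτ1 : τ ≤ 1 / 2) (hθ : 0 < θ) (hθ1 : θ < 1) (hthr : 0 < thr) (hthr1 : thr ≤ 1)
    (hBthr : ∀ c ω, 0 < μ ω → B c ω → thr ≤ Pr μ (rho F ln p lam c) (rho F ln p lam c ω))
    (hBb : ∀ (κ : p.Kap) (i : Fin p.nT) (ω : Ω), B (κ, i) ω → B (col0 κ.1 i κ.2.1) ω)
    (hE : 2 * (2 ^ (q + 6) * τ) * ((q + 6 : ℕ) * (log (1 / thr) / θ + 1)) ≤ c₁ / 4)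
    (hI : c₁ * p.nT ≤ ∑ i : Fin p.nT, H268.ms μ fun ω => ∃ κ : p.Kap, B (κ, i) ω ∧
      GiC F ln p lam μ q τ (κ, i) ω) :
    ∃ a, c₁ / 4 * p.nT ≤ Za F ln p lam μ q τ θ B a := by
  have hnT : (0 : ℝ) < p.nT := by exact_mod_cast p.nT_pos
  -- one offset
  have key : ∀ i : Fin p.nT, (H268.ms μ fun ω => ∃ κ : p.Kap, B (κ, i) ω ∧
      GiC F ln p lam μ q τ (κ, i) ω) ≤
      ∑ a : Bool, (H268.ms μ (GX F ln p lam μ q τ θ B a i) + c₁ / 4) := by
    intro i
    -- the flags which are not coarse-light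
    have hN : ∀ a : Bool, ∑ j : Fin (p.K + 1), H268.ms μ (NL F ln p lam μ q τ θ B a i j) ≤
        c₁ / 4 := by
      intro a
      have h := coarse_frame (F := F) (ln := ln) (lam := lam) hμ a
        (fun j => col0 a i (Fin.ofNat (p.K + 1) j)) (fun j hj => by
          refine ⟨rfl, ?_⟩
          have e : ((Fin.ofNat (p.K + 1) j : Fin (p.K + 1)) : ℕ) = j :=
            Nat.mod_eq_of_lt (Nat.lt_succ_of_le hj)
          show p.k₀ + ((Fin.ofNat (p.K + 1) j : Fin (p.K + 1)) : ℕ) = p.k₀ + j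
          rw [e]) q hτ hτ1 hθ hθ1 hthr hthr1
      refine le_trans ?_ (h.trans hE)
      rw [← Fin.sum_univ_eq_sum_range (fun j => H268.ms μ (fun ω =>
        thr ≤ Pr μ (rho F ln p lam (col0 a i (Fin.ofNat (p.K + 1) j)))
          (rho F ln p lam (col0 a i (Fin.ofNat (p.K + 1) j)) ω) ∧
        GiC F ln p lam μ q τ (col0 a i (Fin.ofNat (p.K + 1) j)) ω ∧
        ¬ CL ln p.k₀ a μ q θ (p.k₀ + (j : ℤ)) ω)) (p.K + 1)]
      refine sum_le_sum fun j _ => ?_
      have e : Fin.ofNat (p.K + 1) (j : ℕ) = j := by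
        apply Fin.ext
        exact Nat.mod_eq_of_lt j.2
      rw [e]
      refine H268.ms_mono' hμ.nonneg fun ω hω => ?_
      exact ⟨hBthr _ _ hω.1 hω.2.1, hω.2.2.1, hω.2.2.2⟩
    -- the union
    have h2 : (H268.ms μ fun ω => ∃ κ : p.Kap, B (κ, i) ω ∧ GiC F ln p lam μ q τ (κ, i) ω) ≤
        ∑ a : Bool, (H268.ms μ (GX F ln p lam μ q τ θ B a i) +
          ∑ j : Fin (p.K + 1), H268.ms μ (NL F ln p lam μ q τ θ B a i j)) := by
      have hR : ∑ a : Bool, (H268.ms μ (GX F ln p lam μ q τ θ B a i) +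
          ∑ j : Fin (p.K + 1), H268.ms μ (NL F ln p lam μ q τ θ B a i j)) =
          ∑ ω, ∑ a : Bool, ((if GX F ln p lam μ q τ θ B a i ω then μ ω else 0) +
          ∑ j : Fin (p.K + 1), if NL F ln p lam μ q τ θ B a i j ω then μ ω else 0) := by
        rw [sum_comm]
        refine sum_congr rfl fun a _ => ?_
        rw [sum_add_distrib]
        congr 1
        rw [sum_comm]
        rfl
      rw [hR]
      unfold H268.ms
      refine sum_le_sum fun ω _ => ?_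
      have h0 := hμ.nonneg ω
      have hnn : ∀ (P : Prop), (0 : ℝ) ≤ if P then μ ω else 0 := by
        intro P
        split_ifs
        · exact h0
        · exact le_rfl
      have hnn2 : ∀ a : Bool, (0 : ℝ) ≤ (if GX F ln p lam μ q τ θ B a i ω then μ ω else 0) +
          ∑ j : Fin (p.K + 1), if NL F ln p lam μ q τ θ B a i j ω then μ ω else 0 := fun a =>
        add_nonneg (hnn _) (sum_nonneg fun j _ => hnn _)
      by_cases hx : ∃ κ : p.Kap, B (κ, i) ω ∧ GiC F ln p lam μ q τ (κ, i) ω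
      · rw [if_pos hx]
        obtain ⟨κ, hB, hG⟩ := hx
        have hB' := hBb κ i ω hB
        have hG' := (GiC_block κ i ω).1 hG
        refine le_trans ?_ (single_le_sum (f := fun a : Bool =>
          (if GX F ln p lam μ q τ θ B a i ω then μ ω else 0) +
          ∑ j : Fin (p.K + 1), if NL F ln p lam μ q τ θ B a i j ω then μ ω else 0)
          (fun a _ => hnn2 a) (mem_univ κ.1))
        rcases h0.eq_or_lt with h00 | h00
        · rw [← h00]
          simp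
        · by_cases hC : CL ln p.k₀ κ.1 μ q θ (p.k₀ + (κ.2.1 : ℕ)) ω
          · have hj : GX F ln p lam μ q τ θ B κ.1 i ω := ⟨κ.2.1, hB', hG', hC⟩
            rw [if_pos hj]
            have : (0 : ℝ) ≤ ∑ j : Fin (p.K + 1),
                if NL F ln p lam μ q τ θ B κ.1 i j ω then μ ω else 0 :=
              sum_nonneg fun j _ => hnn _
            linarith
          · have h3 := single_le_sum (f := fun j : Fin (p.K + 1) =>
              if NL F ln p lam μ q τ θ B κ.1 i j ω then μ ω else 0)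
              (fun j _ => hnn _) (mem_univ κ.2.1)
            have hNL : NL F ln p lam μ q τ θ B κ.1 i κ.2.1 ω := ⟨h00, hB', hG', hC⟩
            rw [if_pos hNL] at h3
            have := hnn (GX F ln p lam μ q τ θ B κ.1 i ω)
            linarith
      · rw [if_neg hx]
        exact sum_nonneg fun a _ => hnn2 a
    refine h2.trans (sum_le_sum fun a _ => ?_)
    have := hN a
    linarith
  -- all offsets
  have h3 : c₁ * p.nT ≤ ∑ a : Bool, (Za F ln p lam μ q τ θ B a + c₁ / 4 * p.nT) := by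
    refine hI.trans ((sum_le_sum fun i _ => key i).trans (le_of_eq ?_))
    rw [sum_comm]
    refine sum_congr rfl fun a _ => ?_
    rw [sum_add_distrib, sum_const, card_univ, Fintype.card_fin, nsmul_eq_mul]
    unfold Za
    ring
  rw [Fintype.sum_bool] at h3
  by_contra hcon
  push Not at hcon
  have ht := hcon true
  have hf := hcon false
  linarith

/-- the slope cell of the column contains the fine box -/
lemma Pr_rho_le_S (hμ : IsProb μ) (c : p.Col) (ω : Ω) :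
    Pr μ (rho F ln p lam c) (rho F ln p lam c ω) ≤
      Pr μ (fun ω => Prm.S c.1 (ln ω)) (Prm.S c.1 (ln ω)) := by
  classical
  unfold Pr
  refine sum_le_sum fun ω' _ => ?_
  by_cases h : rho F ln p lam c ω' = rho F ln p lam c ω
  · have h1 : Prm.S c.1 (ln ω') = Prm.S c.1 (ln ω) := by
      unfold rho at h
      simp only [Prod.mk.injEq] at h
      exact h.2.1
    rw [if_pos h, if_pos h1]
  · rw [if_neg h]
    split_ifs
    · exact hμ.nonneg _
    · exact le_rfl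

/-- **growth along the lines** for the law of the giants -/
theorem QG_growth (hμ : IsProb μ) {c₁ thr : ℝ} (hc : 0 < c₁)
    (hZ : c₁ * p.nT ≤ Za F ln p lam μ q τ θ B a) (hθ : 0 < θ) (hθ1 : θ < 1) (hthr : 0 < thr)
    (hthr1 : thr ≤ 1)
    (hBthr : ∀ c ω, 0 < μ ω → B c ω → thr ≤ Pr μ (rho F ln p lam c) (rho F ln p lam c ω))
    {N₁ : ℕ} (hN : (q + 6 : ℕ) * (log (1 / thr) / log (1 / θ) + 1) ≤ N₁)
    {ν : Ω → ℝ} (hν : IsProb ν) {cν : ℝ} (hcν : 0 < cν) (hμν : ∀ ω, μ ω ≤ cν * ν ω)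
    {α : Type*} (W : Ω → α) {s : ℝ}
    (hs : ∀ ω, 0 < μ ω → s ≤ - log (Pr ν (fun ω => (W ω, ln ω)) (W ω, ln ω) /
      Pr ν ln (ln ω))) :
    s - log (cν / c₁ * N₁) ≤
      Hc (QG F ln p lam μ q τ θ B a) (fun t => W t.2) (fun t => (t.1, ln t.2)) := by
  have hnT : (0 : ℝ) < p.nT := by exact_mod_cast p.nT_pos
  have hZ0 : 0 < Za F ln p lam μ q τ θ B a := lt_of_lt_of_le (by positivity) hZ
  refine growth_cl (bb := (bz p, bz p)) (a := a) hμ (QG_isProb hμ hZ0) hθ hθ1 hthr hthr1 ?_ hN hν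
    (by positivity) ?_ W ?_
  · intro c ω h
    obtain ⟨h1, h2, h3, -, h5⟩ := QG_supp' h
    exact ⟨h1, h2, (hBthr c ω (QG_pos hμ h) h3).trans (Pr_rho_le_S hμ c ω), h5⟩
  · intro t
    refine (QG_le hμ hc hZ t).trans ?_
    have h1 := hμν t.2
    calc 1 / c₁ / p.nT * μ t.2 ≤ 1 / c₁ / p.nT * (cν * ν t.2) :=
          mul_le_mul_of_nonneg_left h1 (by positivity)
      _ = cν / c₁ / p.nT * ν t.2 := by ring
  · intro t h
    exact hs t.2 (QG_pos hμ h)

/-! ## The big boxes of the classes -/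

/-- big boxes are periodic -/
theorem Big_per (hM : F.Tm ≤ p.M) (th η : ℝ) : BPer F p (Big F ln p lam μ th η) := by
  intro k i i' ω h
  unfold Big
  rw [Pr_rho_per (F := F) (ln := ln) (p := p) (lam := lam) (μ := μ) hM k h]

lemma Big_block (th η : ℝ) (κ : p.Kap) (i : Fin p.nT) (ω : Ω)
    (h : Big F ln p lam μ th η (κ, i) ω) : Big F ln p lam μ th η (col0 κ.1 i κ.2.1) ω := h

lemma Big_thr {th η : ℝ} (hη : 0 ≤ η) {c : p.Col} {ω : Ω} (h : Big F ln p lam μ th η c ω) :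
    η * th ≤ Pr μ (rho F ln p lam c) (rho F ln p lam c ω) :=
  (mul_le_mul_of_nonneg_left h.1 hη).trans h.2

/-- the two definitions of giants -/
lemma Gnt_iff (c : p.Col) (ω : Ω) :
    Gnt F ln p lam μ q τ c ω ↔ GiC F ln p lam μ q τ c ω := by
  classical
  unfold Gnt GiC
  have e : ms μ (fun ω' => rho F ln p lam c ω' = rho F ln p lam c ω ∧
      |(ln ω').1 - (ln ω).1| ≤ rad q (Prm.sc c.1) / 4) =
      H268.msc μ (fun ω' => |(ln ω').1 - (ln ω).1| ≤ 2 ^ (-(Prm.sc c.1 + (q : ℤ))) / 48)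
        (rho F ln p lam c) ω := by
    have e2 : rad q (Prm.sc c.1) / 4 = 2 ^ (-(Prm.sc c.1 + (q : ℤ))) / 48 := by
      unfold rad
      ring
    rw [e2, ms_eq]
    unfold H268.msc
    refine sum_congr rfl fun ω' _ => ?_
    by_cases h : rho F ln p lam c ω' = rho F ln p lam c ω ∧
        |(ln ω').1 - (ln ω).1| ≤ 2 ^ (-(Prm.sc c.1 + (q : ℤ))) / 48
    · rw [if_pos h, if_pos h]
    · rw [if_neg h, if_neg h]
  rw [e]

open Classical in
/-- **the law of the slope giants from case (I)** -/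
theorem exists_law (hμ : IsProb μ) (hM : F.Tm ≤ p.M) {c₁ th η : ℝ} (hc : 0 < c₁)
    (hτ : 0 ≤ τ) (hτ1 : τ ≤ 1 / 2) (hθ : 0 < θ) (hθ1 : θ < 1) (hth : 0 < th) (hth1 : th ≤ 1)
    (hη : 0 < η) (hη1 : η ≤ 1)
    (hE : 2 * (2 ^ (q + 6) * τ) * ((q + 6 : ℕ) * (log (1 / (η * th)) / θ + 1)) ≤ c₁ / 4)
    (hI : c₁ * p.nT ≤ ∑ i : Fin p.nT, ms μ fun ω => ∃ κ : p.Kap,
      Big F ln p lam μ th η (κ, i) ω ∧ Gnt F ln p lam μ q τ (κ, i) ω)
    {N₁ : ℕ} (hN : (q + 6 : ℕ) * (log (1 / (η * th)) / log (1 / θ) + 1) ≤ N₁)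
    {ν : Ω → ℝ} (hν : IsProb ν) {cν : ℝ} (hcν : 0 < cν) (hμν : ∀ ω, μ ω ≤ cν * ν ω)
    {α : Type*} (W : Ω → α) {s : ℝ}
    (hs : ∀ ω, 0 < μ ω → s ≤ - log (Pr ν (fun ω => (W ω, ln ω)) (W ω, ln ω) /
      Pr ν ln (ln ω))) :
    ∃ (a : Bool) (Q' : p.Col × Ω → ℝ), IsProb Q' ∧ LPer F p Q' ∧
      (∀ t, Q' t ≤ 4 / c₁ / p.nT * μ t.2) ∧
      (∀ c ω, 0 < Q' (c, ω) → 0 < μ ω ∧ Prm.sy c.1 = a ∧ c.1.2.2 = (bz p, bz p) ∧
        Big F ln p lam μ th η c ω ∧ GiC F ln p lam μ q τ c ω ∧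
        CL ln p.k₀ a μ q θ (Prm.sc c.1) ω) ∧
      (∀ (κ κ' : p.Kap) (i : Fin p.nT) (ω : Ω), 0 < Q' ((κ, i), ω) → 0 < Q' ((κ', i), ω) →
        κ = κ') ∧
      s - log (4 * cν / c₁ * N₁) ≤ Hc Q' (fun t => W t.2) (fun t => (t.1, ln t.2)) := by
  have hthr : 0 < η * th := mul_pos hη hth
  have hthr1 : η * th ≤ 1 := mul_le_one₀ hη1 hth.le hth1
  have hBthr : ∀ (c : p.Col) (ω : Ω), 0 < μ ω → Big F ln p lam μ th η c ω →
      η * th ≤ Pr μ (rho F ln p lam c) (rho F ln p lam c ω) := fun c ω _ h => Big_thr hη.le h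
  obtain ⟨a, ha⟩ := exists_a (B := Big F ln p lam μ th η) hμ hτ hτ1 hθ hθ1 hthr hthr1 hBthr
    (fun κ i ω h => Big_block th η κ i ω h) hE (by
      refine hI.trans (sum_le_sum fun i _ => ?_)
      refine H268.ms_mono' hμ.nonneg fun ω h => ?_
      obtain ⟨κ, h1, h2⟩ := h
      exact ⟨κ, h1, (Gnt_iff _ _).1 h2⟩)
  have hnT : (0 : ℝ) < p.nT := by exact_mod_cast p.nT_pos
  have hc4 : 0 < c₁ / 4 := by positivity
  have hZ0 : 0 < Za F ln p lam μ q τ θ (Big F ln p lam μ th η) a :=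
    lt_of_lt_of_le (by positivity) ha
  refine ⟨a, QG F ln p lam μ q τ θ (Big F ln p lam μ th η) a, QG_isProb hμ hZ0,
    QG_per hM (Big_per hM th η), ?_, ?_, ?_, ?_⟩
  · intro t
    have h := QG_le hμ hc4 ha t
    have e : 1 / (c₁ / 4) = 4 / c₁ := by rw [one_div_div]
    rwa [e] at h
  · intro c ω h
    exact ⟨QG_pos hμ h, QG_supp' h⟩
  · intro κ κ' i ω h h'
    exact QG_one h h'
  · have h := QG_growth (B := Big F ln p lam μ th η) hμ hc4 ha hθ hθ1 hthr hthr1 hBthr hN hν hcν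
      hμν W hs
    have e : cν / (c₁ / 4) = 4 * cν / c₁ := by
      rw [div_div_eq_mul_div]
      ring
    rwa [e] at h

end Vale.Agent.P065.H654
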